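import Mathlib

open MeasureTheory Set Filter
open scoped Topology NNReal

namespace P371H29

/-- composition of an absolutely continuous function with a Lipschitz function -/
theorem ac_lip_comp {f g : ℝ → ℝ} {a b : ℝ} {K : ℝ≥0}
    (hf : AbsolutelyContinuousOnInterval f a b)
    (hg : LipschitzOnWith K g (f '' uIcc a b)) :
    AbsolutelyContinuousOnInterval (fun x => g (f x)) a b := by
  unfold AbsolutelyContinuousOnInterval at hf ⊢
  apply squeeze_zero' ?_ ?_ (by simpa using hf.const_mul (K : ℝ))
  · exact Filter.Eventually.of_forall fun _ => Finset.sum_nonneg (fun i hi => dist_nonneg)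
  rw [eventually_inf_principal]
  filter_upwards with E hE
  rw [Finset.mul_sum]
  apply Finset.sum_le_sum
  intro i hi
  have h1 := hE.1 i hi
  exact hg.dist_le_mul _ (mem_image_of_mem f h1.1) _ (mem_image_of_mem f h1.2)

/-- composition with a continuously differentiable function -/
theorem ac_c1_comp {f g g' : ℝ → ℝ} {a b : ℝ}
    (hf : AbsolutelyContinuousOnInterval f a b)
    (hg : ∀ x, HasDerivAt g (g' x) x) (hg' : Continuous g') :
    AbsolutelyContinuousOnInterval (fun x => g (f x)) a b := by
  have hc : ContinuousOn f (uIcc a b) := hf.continuousOn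
  have hcomp : IsCompact (f '' uIcc a b) := isCompact_uIcc.image_of_continuousOn hc
  obtain ⟨m, hm⟩ := hcomp.bddBelow
  obtain ⟨M, hM⟩ := hcomp.bddAbove
  have hsub : f '' uIcc a b ⊆ Icc m M := fun y hy => ⟨hm hy, hM hy⟩
  have hcd : ContDiffOn ℝ 1 g (Icc m M) := by
    have : ContDiff ℝ 1 g := by
      rw [contDiff_one_iff_deriv]
      refine ⟨fun x => (hg x).differentiableAt, ?_⟩
      have : deriv g = g' := by
        ext x
        exact (hg x).deriv
      rw [this]
      exact hg'
    exact this.contDiffOn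
  obtain ⟨K, hK⟩ := hcd.exists_lipschitzOnWith (by decide) (convex_Icc _ _) isCompact_Icc
  exact ac_lip_comp hf (hK.mono hsub)

/-- a continuously differentiable function is absolutely continuous -/
theorem ac_of_c1 {f f' : ℝ → ℝ} {a b : ℝ}
    (hd : ∀ x ∈ uIcc a b, HasDerivAt f (f' x) x) (hc : ContinuousOn f' (uIcc a b)) :
    AbsolutelyContinuousOnInterval f a b := by
  obtain ⟨C, hC⟩ := isCompact_uIcc.exists_bound_of_continuousOn hc
  have hC0 : 0 ≤ C := le_trans (norm_nonneg _) (hC a left_mem_uIcc)
  have : LipschitzOnWith (Real.toNNReal C) f (uIcc a b) := by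
    apply Convex.lipschitzOnWith_of_nnnorm_hasDerivWithin_le (convex_uIcc a b)
      (fun x hx => (hd x hx).hasDerivWithinAt)
    intro x hx
    have := hC x hx
    rw [← NNReal.coe_le_coe]
    rw [coe_nnnorm, Real.coe_toNNReal _ hC0]
    exact this
  exact this.absolutelyContinuousOnInterval

/-- fundamental theorem of calculus with an almost everywhere derivative -/
theorem ftc_ac {f g : ℝ → ℝ} {a b : ℝ} (hf : AbsolutelyContinuousOnInterval f a b)
    (hg : ∀ᵐ x, x ∈ uIcc a b → HasDerivAt f (g x) x) :
    IntervalIntegrable g volume a b ∧ ∫ x in a..b, g x = f b - f a := by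
  have hae : ∀ᵐ x, x ∈ uIoc a b → deriv f x = g x := by
    filter_upwards [hg] with x hx hxm
    exact (hx (uIoc_subset_uIcc hxm)).deriv
  constructor
  · refine hf.intervalIntegrable_deriv.congr_ae ?_
    rw [Filter.EventuallyEq, MeasureTheory.ae_restrict_iff' measurableSet_uIoc]
    exact hae
  · rw [← hf.integral_deriv_eq_sub]
    refine (intervalIntegral.integral_congr_ae ?_).symm
    exact hae

theorem ac_mono {f g : ℝ → ℝ} {a b : ℝ} (hab : a ≤ b)
    (hf : AbsolutelyContinuousOnInterval f a b)
    (hg : ∀ᵐ x, x ∈ Icc a b → HasDerivAt f (g x) x)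
    (hg0 : ∀ x ∈ Icc a b, 0 ≤ g x) : f a ≤ f b := by
  have h1 : ∀ᵐ x, x ∈ uIcc a b → HasDerivAt f (g x) x := by
    rw [uIcc_of_le hab]
    exact hg
  have h := ftc_ac hf h1
  have h2 : 0 ≤ ∫ x in a..b, g x := intervalIntegral.integral_nonneg hab hg0
  linarith [h.2]

theorem ac_anti {f g : ℝ → ℝ} {a b : ℝ} (hab : a ≤ b)
    (hf : AbsolutelyContinuousOnInterval f a b)
    (hg : ∀ᵐ x, x ∈ Icc a b → HasDerivAt f (g x) x)
    (hg0 : ∀ x ∈ Icc a b, g x ≤ 0) : f b ≤ f a := by
  have h := ac_mono (f := fun x => - f x) (g := fun x => - g x) hab hf.neg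
    (by filter_upwards [hg] with x hx hxm using (hx hxm).neg)
    (fun x hx => by have := hg0 x hx; linarith)
  linarith

/-- locally integrable from interval integrability -/
theorem locInt_of_intInt {f : ℝ → ℝ} (hf : ∀ a b, IntervalIntegrable f volume a b) :
    LocallyIntegrable f volume := by
  intro x
  refine ⟨Ioc (x - 1) (x + 1), Ioc_mem_nhds (by linarith) (by linarith), ?_⟩
  exact (intervalIntegrable_iff_integrableOn_Ioc_of_le (by linarith)).mp (hf (x-1) (x+1))

end P371H29
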