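import Mathlib
import Vale.Agent.Lib.P371H29.AC

open MeasureTheory Set Filter
open scoped Topology

namespace P371H29

/-- a continuously differentiable solution of the equation with potential V at level minus kappa
squared, with derivative y1 -/
structure Sol (V : ℝ → ℝ) (κ : ℝ) (y y1 : ℝ → ℝ) : Prop where
  hV : ∀ a b, IntervalIntegrable V volume a b
  hd : ∀ x, HasDerivAt y (y1 x) x
  hi : ∀ a b, y1 b - y1 a = ∫ t in a..b, (κ ^ 2 - V t) * y t

/-- a function known to be small along sequences to both infinities -/
structure Small (y y1 : ℝ → ℝ) : Prop where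
  bot : ∀ ε > 0, ∃ᶠ x in atBot, |y x| < ε ∧ |y1 x| < ε
  top : ∀ ε > 0, ∃ᶠ x in atTop, |y x| < ε ∧ |y1 x| < ε

/-- the potentials that are admitted -/
structure Pot (V : ℝ → ℝ) : Prop where
  nonneg : ∀ x, 0 ≤ V x
  int : ∀ a b, IntervalIntegrable V volume a b
  bot : Tendsto (fun x => ∫ t in (x - 1)..x, V t) atBot (𝓝 0)
  top : Tendsto (fun x => ∫ t in (x - 1)..x, V t) atTop (𝓝 0)

namespace Sol

variable {V : ℝ → ℝ} {κ : ℝ} {y y1 : ℝ → ℝ}

theorem cont (h : Sol V κ y y1) : Continuous y := by
  rw [continuous_iff_continuousAt]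
  exact fun x => (h.hd x).continuousAt

theorem intF (h : Sol V κ y y1) (a b : ℝ) :
    IntervalIntegrable (fun t => (κ ^ 2 - V t) * y t) volume a b :=
  ((intervalIntegrable_const).sub (h.hV a b)).mul_continuousOn h.cont.continuousOn

theorem locF (h : Sol V κ y y1) : LocallyIntegrable (fun t => (κ ^ 2 - V t) * y t) volume :=
  locInt_of_intInt h.intF

theorem y1_eq (h : Sol V κ y y1) (a : ℝ) :
    y1 = fun x => y1 a + ∫ t in a..x, (κ ^ 2 - V t) * y t := by
  ext x
  have := h.hi a x
  linarith

theorem ae_deriv (h : Sol V κ y y1) : ∀ᵐ x, HasDerivAt y1 ((κ ^ 2 - V x) * y x) x := by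
  filter_upwards [_root_.LocallyIntegrable.ae_hasDerivAt_integral h.locF] with x hx
  rw [h.y1_eq 0]
  simpa using (hx 0).const_add (y1 0)

theorem ac_y1 (h : Sol V κ y y1) (a b : ℝ) : AbsolutelyContinuousOnInterval y1 a b := by
  have h1 := (h.intF a b).absolutelyContinuousOnInterval_intervalIntegral (c := a) left_mem_uIcc
  have h2 : AbsolutelyContinuousOnInterval (fun _ : ℝ => y1 a) a b :=
    ac_of_c1 (f' := fun _ => 0) (fun x _ => hasDerivAt_const x _) continuousOn_const
  have := h2.fun_add h1
  rw [h.y1_eq a]
  simpa using this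

theorem cont1 (h : Sol V κ y y1) : Continuous y1 := by
  rw [continuous_iff_continuousAt]
  intro x
  have := (h.ac_y1 (x - 1) (x + 1)).continuousOn
  rw [uIcc_of_le (by linarith)] at this
  exact this.continuousAt (Icc_mem_nhds (by linarith) (by linarith))

theorem ac_y (h : Sol V κ y y1) (a b : ℝ) : AbsolutelyContinuousOnInterval y a b :=
  ac_of_c1 (fun x _ => h.hd x) h.cont1.continuousOn

theorem neg (h : Sol V κ y y1) : Sol V κ (fun x => - y x) (fun x => - y1 x) where
  hV := h.hV
  hd := fun x => (h.hd x).neg
  hi := fun a b => by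
    have := h.hi a b
    have h2 : ∫ t in a..b, (κ ^ 2 - V t) * -y t = - ∫ t in a..b, (κ ^ 2 - V t) * y t := by
      rw [← intervalIntegral.integral_neg]
      congr 1
      ext t
      ring
    rw [h2, ← this]
    ring

theorem refl (h : Sol V κ y y1) :
    Sol (fun x => V (-x)) κ (fun x => y (-x)) (fun x => - y1 (-x)) where
  hV := fun a b => by
    have := (IntervalIntegrable.iff_comp_neg).mp (h.hV (-a) (-b))
    simpa using this
  hd := fun x => by
    have := (h.hd (-x)).scomp x (hasDerivAt_neg x)
    simpa [Function.comp_def] using this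
  hi := fun a b => by
    have h1 := h.hi (-b) (-a)
    have h2 := intervalIntegral.integral_comp_neg (f := fun t => (κ ^ 2 - V t) * y t)
      (a := a) (b := b)
    rw [h2, ← h1]
    ring

/-- uniqueness for the initial value problem -/
theorem unique (h : Sol V κ y y1) {x₀ : ℝ} (h0 : y x₀ = 0) (h1 : y1 x₀ = 0) (x : ℝ) :
    y x = 0 ∧ y1 x = 0 := by
  set G : ℝ → ℝ := fun t => 1 + κ ^ 2 + |V t| with hG
  have hGi : ∀ a b, IntervalIntegrable G volume a b := fun a b =>
    (intervalIntegrable_const).add (h.hV a b).abs
  have hGl : LocallyIntegrable G volume := locInt_of_intInt hGi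
  have hPae := _root_.LocallyIntegrable.ae_hasDerivAt_integral hGl
  set P : ℝ → ℝ := fun x => ∫ t in x₀..x, G t with hP
  set E : ℝ → ℝ := fun x => y x * y x + y1 x * y1 x with hE
  have hE0 : E x₀ = 0 := by simp [hE, h0, h1]
  have hEae : ∀ᵐ x, HasDerivAt E
      ((y1 x * y x + y x * y1 x) + ((κ ^ 2 - V x) * y x * y1 x + y1 x * ((κ ^ 2 - V x) * y x))) x := by
    filter_upwards [h.ae_deriv] with x hx
    exact ((h.hd x).mul (h.hd x)).add (hx.mul hx)
  have hEac : ∀ a b, AbsolutelyContinuousOnInterval E a b := fun a b =>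
    ((h.ac_y a b).fun_mul (h.ac_y a b)).fun_add ((h.ac_y1 a b).fun_mul (h.ac_y1 a b))
  have hEnn : ∀ x, 0 ≤ E x := fun x => by simp only [hE]; nlinarith [mul_self_nonneg (y x), mul_self_nonneg (y1 x)]
  have hbound : ∀ x, |(y1 x * y x + y x * y1 x) +
      ((κ ^ 2 - V x) * y x * y1 x + y1 x * ((κ ^ 2 - V x) * y x))| ≤ G x * E x := by
    intro x
    have e1 : (y1 x * y x + y x * y1 x) +
      ((κ ^ 2 - V x) * y x * y1 x + y1 x * ((κ ^ 2 - V x) * y x))
      = (1 + κ ^ 2 - V x) * (2 * (y x * y1 x)) := by ring
    rw [e1, abs_mul]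
    have e2 : |1 + κ ^ 2 - V x| ≤ G x := by
      simp only [hG]
      rw [abs_le]
      constructor
      · have := le_abs_self (V x)
        nlinarith [sq_nonneg κ]
      · have := neg_abs_le (V x)
        linarith
    have e3 : |2 * (y x * y1 x)| ≤ E x := by
      simp only [hE]
      rw [abs_le]
      constructor <;> nlinarith [sq_nonneg (y x + y1 x), sq_nonneg (y x - y1 x)]
    exact mul_le_mul e2 e3 (abs_nonneg _) (le_trans (abs_nonneg _) e2)
  have hEx : E x ≤ 0 := by
    have hPac : ∀ a b, x₀ ∈ uIcc a b → AbsolutelyContinuousOnInterval P a b := fun a b hab =>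
      (hGi a b).absolutelyContinuousOnInterval_intervalIntegral hab
    rcases le_total x₀ x with hx | hx
    · have hac : AbsolutelyContinuousOnInterval (fun x => E x * Real.exp (-(P x))) x₀ x := by
        apply (hEac _ _).fun_mul
        exact ac_c1_comp (g := Real.exp) (g' := Real.exp) (hPac _ _ left_mem_uIcc).fun_neg
          Real.hasDerivAt_exp Real.continuous_exp
      have := ac_anti hx hac (g := fun x => ((y1 x * y x + y x * y1 x) +
        ((κ ^ 2 - V x) * y x * y1 x + y1 x * ((κ ^ 2 - V x) * y x))) * Real.exp (-(P x)) +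
        E x * (Real.exp (-(P x)) * (-(G x))))
        (by
          filter_upwards [hEae, hPae] with t ht1 ht2 _
          have h3 : HasDerivAt P (G t) t := ht2 x₀
          exact ht1.mul (h3.neg.exp))
        (by
          intro t _
          have e := abs_le.mp (hbound t)
          have hexp := Real.exp_pos (-(P t))
          have : ((y1 t * y t + y t * y1 t) +
            ((κ ^ 2 - V t) * y t * y1 t + y1 t * ((κ ^ 2 - V t) * y t))) * Real.exp (-(P t)) +
            E t * (Real.exp (-(P t)) * (-(G t))) = Real.exp (-(P t)) *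
            (((y1 t * y t + y t * y1 t) +
            ((κ ^ 2 - V t) * y t * y1 t + y1 t * ((κ ^ 2 - V t) * y t))) - G t * E t) := by ring
          rw [this]
          exact mul_nonpos_of_nonneg_of_nonpos hexp.le (by linarith [e.2]))
      simp only [hE0, zero_mul] at this
      have hexp := Real.exp_pos (-(P x))
      by_contra hcon
      push Not at hcon
      have := mul_pos hcon hexp
      linarith
    · have hac : AbsolutelyContinuousOnInterval (fun x => E x * Real.exp (P x)) x x₀ := by
        apply (hEac _ _).fun_mul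
        exact ac_c1_comp (g := Real.exp) (g' := Real.exp) (hPac _ _ right_mem_uIcc)
          Real.hasDerivAt_exp Real.continuous_exp
      have := ac_mono hx hac (g := fun x => ((y1 x * y x + y x * y1 x) +
        ((κ ^ 2 - V x) * y x * y1 x + y1 x * ((κ ^ 2 - V x) * y x))) * Real.exp (P x) +
        E x * (Real.exp (P x) * (G x)))
        (by
          filter_upwards [hEae, hPae] with t ht1 ht2 _
          have h3 : HasDerivAt P (G t) t := ht2 x₀
          exact ht1.mul (h3.exp))
        (by
          intro t _
          have e := abs_le.mp (hbound t)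
          have hexp := Real.exp_pos (P t)
          have : ((y1 t * y t + y t * y1 t) +
            ((κ ^ 2 - V t) * y t * y1 t + y1 t * ((κ ^ 2 - V t) * y t))) * Real.exp (P t) +
            E t * (Real.exp (P t) * (G t)) = Real.exp (P t) *
            (((y1 t * y t + y t * y1 t) +
            ((κ ^ 2 - V t) * y t * y1 t + y1 t * ((κ ^ 2 - V t) * y t))) + G t * E t) := by ring
          rw [this]
          exact mul_nonneg hexp.le (by linarith [e.1]))
      simp only [hE0, zero_mul] at this
      have hexp := Real.exp_pos (P x)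
      by_contra hcon
      push Not at hcon
      have := mul_pos hcon hexp
      linarith
  have hE2 : E x = 0 := le_antisymm hEx (hEnn x)
  simp only [hE] at hE2
  constructor
  · nlinarith [mul_self_nonneg (y x), mul_self_nonneg (y1 x)]
  · nlinarith [mul_self_nonneg (y x), mul_self_nonneg (y1 x)]

end Sol

theorem Small.refl {y y1 : ℝ → ℝ} (h : Small y y1) :
    Small (fun x => y (-x)) (fun x => - y1 (-x)) where
  bot := fun ε hε => by
    have h1 := h.top ε hε
    have h2 : ∃ᶠ x in atBot, |y (-x)| < ε ∧ |y1 (-x)| < ε :=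
      tendsto_neg_atTop_atBot.frequently (by simpa using h1)
    simpa using h2
  top := fun ε hε => by
    have h1 := h.bot ε hε
    have h2 : ∃ᶠ x in atTop, |y (-x)| < ε ∧ |y1 (-x)| < ε :=
      tendsto_neg_atBot_atTop.frequently (by simpa using h1)
    simpa using h2

theorem Small.neg {y y1 : ℝ → ℝ} (h : Small y y1) :
    Small (fun x => - y x) (fun x => - y1 x) where
  bot := fun ε hε => by simpa using h.bot ε hε
  top := fun ε hε => by simpa using h.top ε hε

theorem Pot.refl {V : ℝ → ℝ} (h : Pot V) : Pot (fun x => V (-x)) where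
  nonneg := fun x => h.nonneg _
  int := fun a b => by
    have := (IntervalIntegrable.iff_comp_neg).mp (h.int (-a) (-b))
    simpa using this
  bot := by
    have h1 : Tendsto (fun x : ℝ => -x + 1) atBot atTop :=
      tendsto_atTop_add_const_right _ _ tendsto_neg_atBot_atTop
    have h2 := h.top.comp h1
    refine h2.congr (fun x => ?_)
    have h3 := intervalIntegral.integral_comp_neg (f := V) (a := x - 1) (b := x)
    rw [h3]
    simp only [Function.comp_apply]
    congr 1 <;> ring
  top := by
    have h1 : Tendsto (fun x : ℝ => -x + 1) atTop atBot :=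
      tendsto_atBot_add_const_right _ _ tendsto_neg_atTop_atBot
    have h2 := h.bot.comp h1
    refine h2.congr (fun x => ?_)
    have h3 := intervalIntegral.integral_comp_neg (f := V) (a := x - 1) (b := x)
    rw [h3]
    simp only [Function.comp_apply]
    congr 1 <;> ring

end P371H29
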