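import Mathlib
import Vale.Agent.Lib.P371H29.Sol

open MeasureTheory Set Filter
open scoped Topology

namespace P371H29

/-- unit averages of the potential -/
noncomputable def wbar (V : ℝ → ℝ) (x : ℝ) : ℝ := ∫ t in (x - 1)..x, V t

/-- primitive of the potential -/
noncomputable def prim (V : ℝ → ℝ) (x : ℝ) : ℝ := ∫ t in (0:ℝ)..x, V t

/-- the corrector, whose derivative is the potential minus its unit average -/
noncomputable def corr (V : ℝ → ℝ) (x : ℝ) : ℝ := prim V x - ∫ t in (x - 1)..x, prim V t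

namespace Pot

variable {V : ℝ → ℝ}

theorem prim_cont (h : Pot V) : Continuous (prim V) := by
  rw [continuous_iff_continuousAt]
  intro x
  have := ((h.int (min 0 (x-1)) (max 0 (x + 1))).absolutelyContinuousOnInterval_intervalIntegral
    (c := 0) (by rw [uIcc_of_le (by simp)]; constructor <;> simp)).continuousOn
  rw [uIcc_of_le (by simp)] at this
  exact this.continuousAt (Icc_mem_nhds (by simp) (by simp))

theorem prim_sub (h : Pot V) (a b : ℝ) : prim V b - prim V a = ∫ t in a..b, V t := by
  unfold prim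
  exact intervalIntegral.integral_interval_sub_left (h.int _ _) (h.int _ _)

theorem prim_mono (h : Pot V) : Monotone (prim V) := by
  intro a b hab
  have := h.prim_sub a b
  have h2 : 0 ≤ ∫ t in a..b, V t := intervalIntegral.integral_nonneg hab (fun t _ => h.nonneg t)
  linarith

theorem wbar_eq (h : Pot V) (x : ℝ) : wbar V x = prim V x - prim V (x - 1) :=
  (h.prim_sub _ _).symm

theorem wbar_nonneg (h : Pot V) (x : ℝ) : 0 ≤ wbar V x :=
  intervalIntegral.integral_nonneg (by linarith) (fun t _ => h.nonneg t)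

theorem corr_nonneg (h : Pot V) (x : ℝ) : 0 ≤ corr V x := by
  have h1 : ∫ t in (x - 1)..x, prim V t ≤ ∫ _ in (x - 1)..x, prim V x := by
    apply intervalIntegral.integral_mono_on (by linarith) (h.prim_cont.intervalIntegrable _ _)
      intervalIntegrable_const
    intro t ht
    exact h.prim_mono ht.2
  rw [intervalIntegral.integral_const] at h1
  unfold corr
  simp only [sub_sub_cancel, one_smul] at h1
  linarith

theorem corr_le (h : Pot V) (x : ℝ) : corr V x ≤ wbar V x := by
  have h1 : ∫ _ in (x - 1)..x, prim V (x - 1) ≤ ∫ t in (x - 1)..x, prim V t := by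
    apply intervalIntegral.integral_mono_on (by linarith) intervalIntegrable_const
      (h.prim_cont.intervalIntegrable _ _)
    intro t ht
    exact h.prim_mono ht.1
  rw [intervalIntegral.integral_const] at h1
  unfold corr
  rw [h.wbar_eq]
  simp only [sub_sub_cancel, one_smul] at h1
  linarith

theorem prim_prim_deriv (h : Pot V) (x : ℝ) :
    HasDerivAt (fun x => ∫ t in (x - 1)..x, prim V t) (wbar V x) x := by
  have h1 : ∀ x, HasDerivAt (fun x => ∫ t in (0:ℝ)..x, prim V t) (prim V x) x := fun x =>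
    intervalIntegral.integral_hasDerivAt_right (h.prim_cont.intervalIntegrable _ _)
      (h.prim_cont.stronglyMeasurableAtFilter _ _) h.prim_cont.continuousAt
  have h2 : HasDerivAt (fun x => ∫ t in (0:ℝ)..(x - 1), prim V t) (prim V (x - 1)) x := by
    have := (h1 (x - 1)).comp x ((hasDerivAt_id x).sub_const 1)
    simpa [Function.comp_def] using this
  have h3 := (h1 x).sub h2
  rw [h.wbar_eq]
  refine h3.congr_of_eventuallyEq (Eventually.of_forall fun z => ?_)
  simp only [Pi.sub_apply]
  rw [intervalIntegral.integral_interval_sub_left (h.prim_cont.intervalIntegrable _ _)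
    (h.prim_cont.intervalIntegrable _ _)]

theorem corr_ae (h : Pot V) : ∀ᵐ x, HasDerivAt (corr V) (V x - wbar V x) x := by
  filter_upwards [_root_.LocallyIntegrable.ae_hasDerivAt_integral (locInt_of_intInt h.int)] with x hx
  exact (hx 0).sub (h.prim_prim_deriv x)

theorem wbar_cont (h : Pot V) : Continuous (wbar V) := by
  have : wbar V = fun x => prim V x - prim V (x - 1) := by
    ext x
    exact h.wbar_eq x
  rw [this]
  have := h.prim_cont
  fun_prop

theorem corr_ac (h : Pot V) (a b : ℝ) : AbsolutelyContinuousOnInterval (corr V) a b := by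
  have h1 : AbsolutelyContinuousOnInterval (prim V) a b := by
    have h2 := (h.int a b).absolutelyContinuousOnInterval_intervalIntegral (c := a) left_mem_uIcc
    have h3 : AbsolutelyContinuousOnInterval (fun _ : ℝ => prim V a) a b :=
      ac_of_c1 (f' := fun _ => 0) (fun x _ => hasDerivAt_const x _) continuousOn_const
    have h4 := h3.fun_add h2
    have h5 : prim V = fun x => prim V a + ∫ t in a..x, V t := by
      ext x
      have := h.prim_sub a x
      linarith
    rw [h5]
    simpa using h4
  have h2 : AbsolutelyContinuousOnInterval (fun x => ∫ t in (x - 1)..x, prim V t) a b :=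
    ac_of_c1 (fun x _ => h.prim_prim_deriv x) h.wbar_cont.continuousOn
  exact h1.fun_sub h2

theorem corr_cont (h : Pot V) : Continuous (corr V) := by
  unfold corr
  have h1 : Continuous (fun x => ∫ t in (x - 1)..x, prim V t) := by
    rw [continuous_iff_continuousAt]
    exact fun x => (h.prim_prim_deriv x).continuousAt
  exact h.prim_cont.sub h1

theorem wbar_small (h : Pot V) {ε : ℝ} (hε : 0 < ε) : ∀ᶠ x in atBot, wbar V x < ε :=
  (h.bot.eventually (gt_mem_nhds hε))

end Pot

/-- nonnegativity from a monotone weighted quantity that is small far away -/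
theorem bot_nonneg {m h : ℝ → ℝ} {x : ℝ} (hm : 0 < m x) (hmono : ∀ t ≤ x, m t ≤ m x)
    (hm0 : ∀ t ≤ x, 0 ≤ m t)
    (hf : ∀ t ≤ x, m t * h t ≤ m x * h x)
    (hs : ∀ ε > 0, ∃ t ≤ x, |h t| < ε) : 0 ≤ h x := by
  apply le_of_forall_pos_le_add
  intro ε hε
  obtain ⟨t, ht, hht⟩ := hs ε hε
  have h1 := hf t ht
  have h2 := abs_lt.mp hht
  have h3 : -(m x * ε) ≤ m t * h t := by
    have a1 : m t * (-ε) ≤ m t * h t := mul_le_mul_of_nonneg_left h2.1.le (hm0 t ht)
    have a2 : m t * ε ≤ m x * ε := mul_le_mul_of_nonneg_right (hmono t ht) hε.le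
    linarith
  have h4 : 0 ≤ m x * (h x + ε) := by nlinarith
  by_contra hcon
  push Not at hcon
  have : m x * (h x + ε) < 0 := mul_neg_of_pos_of_neg hm hcon
  linarith

section

variable {V : ℝ → ℝ} {κ : ℝ} {y y1 : ℝ → ℝ}

/-- upper bound of the logarithmic derivative -/
theorem upper (hs : Sol V κ y y1) (hV : ∀ x, 0 ≤ V x) (hκ : 0 < κ)
    (hsm : ∀ ε > 0, ∃ᶠ x in atBot, |y x| < ε ∧ |y1 x| < ε) {x : ℝ}
    (hy : ∀ t ≤ x, 0 ≤ y t) : y1 x ≤ κ * y x := by
  have := bot_nonneg (m := fun t => Real.exp (κ * t)) (h := fun t => κ * y t - y1 t) (x := x)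
    (Real.exp_pos _)
    (fun t ht => Real.exp_le_exp.mpr (mul_le_mul_of_nonneg_left ht hκ.le))
    (fun t _ => (Real.exp_pos _).le)
    (by
      intro t ht
      apply ac_mono ht (f := fun t => Real.exp (κ * t) * (κ * y t - y1 t))
        (g := fun t => Real.exp (κ * t) * (κ * 1) * (κ * y t - y1 t) +
          Real.exp (κ * t) * (κ * y1 t - (κ ^ 2 - V t) * y t))
      · apply AbsolutelyContinuousOnInterval.fun_mul
        · apply ac_of_c1 (f' := fun t => Real.exp (κ * t) * (κ * 1))
          · intro s _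
            exact ((hasDerivAt_id s).const_mul κ).exp
          · fun_prop
        · exact ((hs.ac_y _ _).const_mul κ).fun_sub (hs.ac_y1 _ _)
      · filter_upwards [hs.ae_deriv] with s hsd _
        exact (((hasDerivAt_id s).const_mul κ).exp).mul (((hs.hd s).const_mul κ).sub hsd)
      · intro s hs2
        have h1 : Real.exp (κ * s) * (κ * 1) * (κ * y s - y1 s) +
          Real.exp (κ * s) * (κ * y1 s - (κ ^ 2 - V s) * y s) = Real.exp (κ * s) * (V s * y s) := by
          ring
        rw [h1]
        exact mul_nonneg (Real.exp_pos _).le (mul_nonneg (hV s) (hy s hs2.2)))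
    (by
      intro ε hε
      have h1 := (hsm (ε / (1 + κ)) (by positivity)).and_eventually (eventually_le_atBot x)
      obtain ⟨t, ⟨h2, h3⟩, h4⟩ := h1.exists
      refine ⟨t, h4, ?_⟩
      calc |κ * y t - y1 t| ≤ |κ * y t| + |y1 t| := abs_sub _ _
        _ = κ * |y t| + |y1 t| := by rw [abs_mul, abs_of_pos hκ]
        _ < κ * (ε / (1 + κ)) + ε / (1 + κ) := by
          have := mul_lt_mul_of_pos_left h2 hκ
          linarith
        _ = ε := by field_simp; ring)
  linarith

/-- eventual lower bound of the logarithmic derivative -/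
theorem eventually_ge (hs : Sol V κ y y1) (hp : Pot V) (hκ : 0 < κ)
    (hsm : ∀ ε > 0, ∃ᶠ x in atBot, |y x| < ε ∧ |y1 x| < ε)
    (hy : ∀ᶠ x in atBot, 0 ≤ y x) {k : ℝ} (hk : k < κ) : ∀ᶠ x in atBot, k * y x ≤ y1 x := by
  obtain ⟨k', hk'1, hk'2, hk'3⟩ : ∃ k', 0 < k' ∧ k < k' ∧ k' < κ := by
    refine ⟨(max k 0 + κ) / 2, ?_, ?_, ?_⟩
    · have := le_max_right k 0
      linarith
    · have := le_max_left k 0
      linarith
    · have : max k 0 < κ := max_lt hk hκ
      linarith
  have hδ : 0 < min (k' - k) (min k' (κ ^ 2 - k' ^ 2)) := by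
    apply lt_min (by linarith)
    apply lt_min hk'1
    nlinarith
  obtain ⟨X, hX⟩ := eventually_atBot.mp ((hp.wbar_small hδ).and hy)
  rw [eventually_atBot]
  refine ⟨X, fun x hx => ?_⟩
  have hR : ∀ x, HasDerivAt (fun x => ∫ t in (0:ℝ)..x, corr V t) (corr V x) x := fun x =>
    intervalIntegral.integral_hasDerivAt_right (hp.corr_cont.intervalIntegrable _ _)
      (hp.corr_cont.stronglyMeasurableAtFilter _ _) hp.corr_cont.continuousAt
  set R : ℝ → ℝ := fun x => ∫ t in (0:ℝ)..x, corr V t with hRdef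
  have hwb : ∀ t ≤ x, wbar V t < k' - k ∧ wbar V t < k' ∧ wbar V t < κ ^ 2 - k' ^ 2 := by
    intro t ht
    have h1 := (hX t (le_trans ht hx)).1
    exact ⟨lt_of_lt_of_le h1 (min_le_left _ _),
      lt_of_lt_of_le h1 (le_trans (min_le_right _ _) (min_le_left _ _)),
      lt_of_lt_of_le h1 (le_trans (min_le_right _ _) (min_le_right _ _))⟩
  have hmd : ∀ t, HasDerivAt (fun t => Real.exp (k' * t - R t))
      (Real.exp (k' * t - R t) * (k' * 1 - corr V t)) t := fun t =>
    (((hasDerivAt_id t).const_mul k').sub (hR t)).exp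
  have hmc : Continuous (fun t => Real.exp (k' * t - R t)) := by
    rw [continuous_iff_continuousAt]
    exact fun t => (hmd t).continuousAt
  have hmac : ∀ a b, AbsolutelyContinuousOnInterval (fun t => Real.exp (k' * t - R t)) a b :=
    fun a b => ac_of_c1 (fun t _ => hmd t)
      ((hmc.mul (continuous_const.sub hp.corr_cont)).continuousOn)
  have key := bot_nonneg (m := fun t => Real.exp (k' * t - R t))
    (h := fun t => y1 t + corr V t * y t - k' * y t) (x := x)
    (Real.exp_pos _)
    (by
      intro t ht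
      apply ac_mono ht (hmac t x) (g := fun t => Real.exp (k' * t - R t) * (k' * 1 - corr V t))
      · filter_upwards with s _ using hmd s
      · intro s hs2
        apply mul_nonneg (Real.exp_pos _).le
        have h1 := hp.corr_le s
        have h2 := (hwb s hs2.2).2.1
        linarith)
    (fun t _ => (Real.exp_pos _).le)
    (by
      intro t ht
      apply ac_mono ht (f := fun t => Real.exp (k' * t - R t) * (y1 t + corr V t * y t - k' * y t))
        (g := fun t => Real.exp (k' * t - R t) * (k' * 1 - corr V t) *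
          (y1 t + corr V t * y t - k' * y t) +
          Real.exp (k' * t - R t) * ((κ ^ 2 - V t) * y t + ((V t - wbar V t) * y t
            + corr V t * y1 t) - k' * y1 t))
      · apply AbsolutelyContinuousOnInterval.fun_mul (hmac _ _)
        exact ((hs.ac_y1 _ _).fun_add ((hp.corr_ac _ _).fun_mul (hs.ac_y _ _))).fun_sub
          ((hs.ac_y _ _).const_mul k')
      · filter_upwards [hs.ae_deriv, hp.corr_ae] with s hs1 hs2 _
        exact (hmd s).mul ((hs1.add (hs2.mul (hs.hd s))).sub ((hs.hd s).const_mul k'))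
      · intro s hs2
        have h1 : Real.exp (k' * s - R s) * (k' * 1 - corr V s) *
          (y1 s + corr V s * y s - k' * y s) +
          Real.exp (k' * s - R s) * ((κ ^ 2 - V s) * y s + ((V s - wbar V s) * y s
            + corr V s * y1 s) - k' * y1 s) = Real.exp (k' * s - R s) *
            ((κ ^ 2 - wbar V s - (k' - corr V s) ^ 2) * y s) := by
          ring
        rw [h1]
        apply mul_nonneg (Real.exp_pos _).le
        apply mul_nonneg _ (hX s (le_trans hs2.2 hx)).2
        have h2 := (hwb s hs2.2)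
        have h3 := hp.corr_le s
        have h4 := hp.corr_nonneg s
        have h5 : (k' - corr V s) ^ 2 ≤ k' ^ 2 := by
          apply pow_le_pow_left₀
          · linarith [h2.2.1]
          · linarith
        linarith [h2.2.2])
    (by
      intro ε hε
      have hc : 0 < 1 + k' + k' := by linarith
      have h1 := (hsm (ε / (1 + k' + k')) (by positivity)).and_eventually (eventually_le_atBot x)
      obtain ⟨t, ⟨h2, h3⟩, h4⟩ := h1.exists
      refine ⟨t, h4, ?_⟩
      have h5 := hp.corr_nonneg t
      have h6 := hp.corr_le t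
      have h7 := (hwb t h4).2.1
      have h8 : |corr V t| ≤ k' := by rw [abs_of_nonneg h5]; linarith
      calc |y1 t + corr V t * y t - k' * y t| ≤ |y1 t + corr V t * y t| + |k' * y t| := abs_sub _ _
        _ ≤ |y1 t| + |corr V t * y t| + |k' * y t| := by
          have := abs_add_le (y1 t) (corr V t * y t)
          linarith
        _ = |y1 t| + |corr V t| * |y t| + k' * |y t| := by
          rw [abs_mul, abs_mul, abs_of_pos hk'1]
        _ ≤ |y1 t| + k' * |y t| + k' * |y t| := by
          have := mul_le_mul_of_nonneg_right h8 (abs_nonneg (y t))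
          linarith
        _ < ε / (1 + k' + k') + k' * (ε / (1 + k' + k')) + k' * (ε / (1 + k' + k')) := by
          have := mul_lt_mul_of_pos_left h2 hk'1
          linarith
        _ = ε := by field_simp)
  have h1 := hp.corr_le x
  have h2 := (hwb x le_rfl).1
  have h3 := (hX x hx).2
  nlinarith

/-- near minus infinity a zero forces growth of the solution to the left -/
theorem core (hs : Sol V κ y y1) (hp : Pot V) (hκ : 0 < κ) {X : ℝ}
    (hX : ∀ t ≤ X, wbar V t < min (κ / 4) (7 * κ ^ 2 / 16)) {z : ℝ} (hz : z ≤ X)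
    (hyz : y z = 0) (hy1z : 0 < y1 z) : ∀ x < z, y x < 0 ∧ 0 < y1 x := by
  set k := κ / 2 with hk
  have hR : ∀ x, HasDerivAt (fun x => ∫ t in (0:ℝ)..x, corr V t) (corr V x) x := fun x =>
    intervalIntegral.integral_hasDerivAt_right (hp.corr_cont.intervalIntegrable _ _)
      (hp.corr_cont.stronglyMeasurableAtFilter _ _) hp.corr_cont.continuousAt
  set R : ℝ → ℝ := fun x => ∫ t in (0:ℝ)..x, corr V t with hRdef
  have hmd : ∀ t, HasDerivAt (fun t => Real.exp (-(k * t) - R t))
      (Real.exp (-(k * t) - R t) * (-(k * 1) - corr V t)) t := fun t =>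
    ((((hasDerivAt_id t).const_mul k).neg).sub (hR t)).exp
  have hmc : Continuous (fun t => Real.exp (-(k * t) - R t)) := by
    rw [continuous_iff_continuousAt]
    exact fun t => (hmd t).continuousAt
  have hmac : ∀ a b, AbsolutelyContinuousOnInterval (fun t => Real.exp (-(k * t) - R t)) a b :=
    fun a b => ac_of_c1 (fun t _ => hmd t)
      ((hmc.mul (continuous_const.sub hp.corr_cont)).continuousOn)
  -- monotonicity on intervals where y is nonpositive
  have hdec : ∀ a b, a ≤ b → b ≤ X → (∀ t ∈ Icc a b, y t ≤ 0) →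
      Real.exp (-(k * b) - R b) * (y1 b + corr V b * y b + k * y b) ≤
      Real.exp (-(k * a) - R a) * (y1 a + corr V a * y a + k * y a) := by
    intro a b hab hb hyn
    apply ac_anti hab (f := fun t => Real.exp (-(k * t) - R t) * (y1 t + corr V t * y t + k * y t))
      (g := fun t => Real.exp (-(k * t) - R t) * (-(k * 1) - corr V t) *
        (y1 t + corr V t * y t + k * y t) +
        Real.exp (-(k * t) - R t) * ((κ ^ 2 - V t) * y t + ((V t - wbar V t) * y t
          + corr V t * y1 t) + k * y1 t))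
    · apply AbsolutelyContinuousOnInterval.fun_mul (hmac _ _)
      exact ((hs.ac_y1 _ _).fun_add ((hp.corr_ac _ _).fun_mul (hs.ac_y _ _))).fun_add
        ((hs.ac_y _ _).const_mul k)
    · filter_upwards [hs.ae_deriv, hp.corr_ae] with s hs1 hs2 _
      exact (hmd s).mul ((hs1.add (hs2.mul (hs.hd s))).add ((hs.hd s).const_mul k))
    · intro s hs2
      have h1 : Real.exp (-(k * s) - R s) * (-(k * 1) - corr V s) *
        (y1 s + corr V s * y s + k * y s) +
        Real.exp (-(k * s) - R s) * ((κ ^ 2 - V s) * y s + ((V s - wbar V s) * y s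
          + corr V s * y1 s) + k * y1 s) = Real.exp (-(k * s) - R s) *
          ((κ ^ 2 - wbar V s - (corr V s + k) ^ 2) * y s) := by
        ring
      rw [h1]
      apply mul_nonpos_of_nonneg_of_nonpos (Real.exp_pos _).le
      apply mul_nonpos_of_nonneg_of_nonpos _ (hyn s hs2)
      have h2 := hX s (le_trans hs2.2 hb)
      have h3 := hp.corr_le s
      have h4 := hp.corr_nonneg s
      have h5 := lt_of_lt_of_le h2 (min_le_left _ _)
      have h6 := lt_of_lt_of_le h2 (min_le_right _ _)
      have h7 : (corr V s + k) ^ 2 ≤ (3 * κ / 4) ^ 2 := by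
        apply pow_le_pow_left₀
        · positivity
        · linarith
      nlinarith
  have hfz : 0 < Real.exp (-(k * z) - R z) * (y1 z + corr V z * y z + k * y z) := by
    rw [hyz]
    simp only [mul_zero, add_zero]
    exact mul_pos (Real.exp_pos _) hy1z
  -- y is negative just to the left of z
  have hloc : ∃ δ > 0, ∀ t ∈ Ioo (z - δ) z, y t < 0 := by
    have h1 := hs.cont1.continuousAt.eventually (lt_mem_nhds hy1z)
    obtain ⟨δ, hδ, h2⟩ := Metric.eventually_nhds_iff.mp h1
    refine ⟨δ, hδ, fun t ht => ?_⟩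
    obtain ⟨c, hc1, hc2⟩ := exists_hasDerivAt_eq_slope y y1 ht.2 hs.cont.continuousOn
      (fun s _ => hs.hd s)
    have h3 : 0 < y1 c := h2 (by rw [Real.dist_eq, abs_lt]; constructor <;> linarith [hc1.1, hc1.2, ht.1])
    have h4 : 0 < z - t := by linarith [ht.2]
    rw [hc2, hyz, zero_sub] at h3
    have h5 := mul_pos h3 h4
    rw [div_mul_cancel₀ _ h4.ne'] at h5
    linarith
  obtain ⟨δ, hδ, hneg⟩ := hloc
  have hclaim : ∀ x < z, y x < 0 := by
    intro x2 hx2
    by_contra hcon
    push Not at hcon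
    -- the last point before z with nonnegative value
    set A : Set ℝ := Icc x2 z ∩ {t | 0 ≤ y t} ∩ {t | t ≤ z - δ / 2 ∨ t ≤ x2} with hA
    have hx2A : x2 ∈ A := ⟨⟨⟨le_rfl, hx2.le⟩, hcon⟩, Or.inr le_rfl⟩
    have hAc : IsCompact A := by
      apply IsCompact.inter_right
      · exact (isCompact_Icc).inter_right (isClosed_le continuous_const hs.cont)
      · exact (isClosed_le continuous_id continuous_const).union
          (isClosed_le continuous_id continuous_const)
    obtain ⟨x1, hx1, hx1max⟩ := hAc.exists_isGreatest ⟨x2, hx2A⟩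
    have hx1z : x1 < z := by
      rcases hx1.2 with h | h
      · linarith
      · linarith
    have hbet : ∀ t ∈ Ioo x1 z, y t < 0 := by
      intro t ht
      by_contra hc
      push Not at hc
      rcases lt_or_ge (z - δ) t with h | h
      · exact absurd (hneg t ⟨h, ht.2⟩) (not_lt.mpr hc)
      · have : t ∈ A := ⟨⟨⟨le_trans hx1.1.1.1 ht.1.le, ht.2.le⟩, hc⟩, Or.inl (by linarith)⟩
        have := hx1max this
        linarith [ht.1]
    have hyx1 : y x1 = 0 := by
      apply le_antisymm _ hx1.1.2
      have h1 : Tendsto y (𝓝[>] x1) (𝓝 (y x1)) :=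
        (hs.cont.tendsto x1).mono_left nhdsWithin_le_nhds
      apply le_of_tendsto h1
      filter_upwards [Ioo_mem_nhdsGT hx1z] with t ht using (hbet t ht).le
    have hle : ∀ t ∈ Icc x1 z, y t ≤ 0 := by
      intro t ht
      rcases ht.1.eq_or_lt with h | h
      · rw [← h, hyx1]
      · rcases ht.2.eq_or_lt with h' | h'
        · rw [h', hyz]
        · exact (hbet t ⟨h, h'⟩).le
    have h1 := hdec x1 z hx1z.le hz hle
    rw [hyx1] at h1
    simp only [mul_zero, add_zero] at h1
    have h2 : 0 < y1 x1 := by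
      have h3 := lt_of_lt_of_le hfz h1
      exact (pos_iff_pos_of_mul_pos h3).mp (Real.exp_pos _)
    -- then y is positive just to the right of x1
    have h3 := hs.cont1.continuousAt.eventually (lt_mem_nhds h2)
    obtain ⟨δ', hδ', h4⟩ := Metric.eventually_nhds_iff.mp h3
    obtain ⟨t, ht1, ht2⟩ : ∃ t, x1 < t ∧ t < min z (x1 + δ') :=
      exists_between (lt_min hx1z (by linarith))
    have ht3 := lt_of_lt_of_le ht2 (min_le_left _ _)
    have ht4 := lt_of_lt_of_le ht2 (min_le_right _ _)
    obtain ⟨c, hc1, hc2⟩ := exists_hasDerivAt_eq_slope y y1 ht1 hs.cont.continuousOn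
      (fun s _ => hs.hd s)
    have h5 : 0 < y1 c := h4 (by rw [Real.dist_eq, abs_lt]; constructor <;> linarith [hc1.1, hc1.2])
    rw [hc2, hyx1, sub_zero] at h5
    have h6 := mul_pos h5 (sub_pos.mpr ht1)
    rw [div_mul_cancel₀ _ (sub_pos.mpr ht1).ne'] at h6
    exact absurd (hbet t ⟨ht1, ht3⟩) (not_lt.mpr h6.le)
  intro x hx
  refine ⟨hclaim x hx, ?_⟩
  have h1 := hdec x z hx.le hz (by
    intro t ht
    rcases ht.2.eq_or_lt with h | h
    · rw [h, hyz]
    · exact (hclaim t h).le)
  have h2 : 0 < y1 x + corr V x * y x + k * y x := by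
    have h3 := lt_of_lt_of_le hfz h1
    exact (pos_iff_pos_of_mul_pos h3).mp (Real.exp_pos _)
  have h3 := hclaim x hx
  have h4 := hp.corr_nonneg x
  have h5 : corr V x * y x ≤ 0 := mul_nonpos_of_nonneg_of_nonpos h4 h3.le
  have h6 : k * y x < 0 := mul_neg_of_pos_of_neg (by positivity) h3
  linarith

theorem core_not_small (hs : Sol V κ y y1) (hp : Pot V) (hκ : 0 < κ) {X : ℝ}
    (hX : ∀ t ≤ X, wbar V t < min (κ / 4) (7 * κ ^ 2 / 16)) {z : ℝ} (hz : z ≤ X)
    (hyz : y z = 0) (hy1z : 0 < y1 z)
    (hsm : ∀ ε > 0, ∃ᶠ x in atBot, |y x| < ε ∧ |y1 x| < ε) : False := by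
  have hc := core hs hp hκ hX hz hyz hy1z
  have hmono : StrictMonoOn y (Iic (z - 1)) := by
    apply strictMonoOn_of_deriv_pos (convex_Iic _) hs.cont.continuousOn
    intro x hx
    rw [interior_Iic] at hx
    rw [(hs.hd x).deriv]
    exact (hc x (by have : x < z - 1 := hx; linarith)).2
  have h0 := (hc (z - 1) (by linarith)).1
  have h1 := (hsm (-(y (z - 1))) (by linarith)).and_eventually (eventually_le_atBot (z - 1))
  obtain ⟨t, ⟨h2, _⟩, h4⟩ := h1.exists
  have h5 := hmono.monotoneOn h4 self_mem_Iic h4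
  have h6 := (abs_lt.mp h2).1
  linarith

theorem eventually_ne (hs : Sol V κ y y1) (hp : Pot V) (hκ : 0 < κ)
    (hsm : ∀ ε > 0, ∃ᶠ x in atBot, |y x| < ε ∧ |y1 x| < ε) (hne : ∃ x, y x ≠ 0) :
    ∃ X, ∀ x ≤ X, y x ≠ 0 := by
  have hδ : 0 < min (κ / 4) (7 * κ ^ 2 / 16) := by
    apply lt_min <;> positivity
  obtain ⟨X, hX⟩ := eventually_atBot.mp (hp.wbar_small hδ)
  refine ⟨X, fun z hz hyz => ?_⟩
  rcases lt_trichotomy (y1 z) 0 with h | h | h
  · apply core_not_small hs.neg hp hκ hX hz (by simpa using hyz) (by linarith)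
    intro ε hε
    simpa using hsm ε hε
  · obtain ⟨x, hx⟩ := hne
    exact hx (hs.unique hyz h x).1
  · exact core_not_small hs hp hκ hX hz hyz h hsm

theorem eventually_sign (hs : Sol V κ y y1) (hp : Pot V) (hκ : 0 < κ)
    (hsm : ∀ ε > 0, ∃ᶠ x in atBot, |y x| < ε ∧ |y1 x| < ε) (hne : ∃ x, y x ≠ 0) :
    (∀ᶠ x in atBot, 0 < y x) ∨ (∀ᶠ x in atBot, y x < 0) := by
  obtain ⟨X, hX⟩ := eventually_ne hs hp hκ hsm hne
  rcases lt_or_gt_of_ne (hX X le_rfl) with h | h
  · right
    rw [eventually_atBot]
    refine ⟨X, fun x hx => ?_⟩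
    by_contra hc
    push Not at hc
    have := (isPreconnected_Iic (a := X)).intermediate_value (a := X) (b := x)
      self_mem_Iic hx hs.cont.continuousOn
    obtain ⟨t, ht1, ht2⟩ := this ⟨h.le, hc⟩
    exact hX t ht1 ht2
  · left
    rw [eventually_atBot]
    refine ⟨X, fun x hx => ?_⟩
    by_contra hc
    push Not at hc
    have := (isPreconnected_Iic (a := X)).intermediate_value (a := x) (b := X)
      hx self_mem_Iic hs.cont.continuousOn
    obtain ⟨t, ht1, ht2⟩ := this ⟨hc, h.le⟩
    exact hX t ht1 ht2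

theorem ratio_bot_pos (hs : Sol V κ y y1) (hp : Pot V) (hκ : 0 < κ)
    (hsm : ∀ ε > 0, ∃ᶠ x in atBot, |y x| < ε ∧ |y1 x| < ε) (hpos : ∀ᶠ x in atBot, 0 < y x) :
    Tendsto (fun x => y1 x / y x) atBot (𝓝 κ) := by
  rw [tendsto_order]
  constructor
  · intro k hk
    obtain ⟨k', hk1, hk2⟩ := exists_between hk
    filter_upwards [eventually_ge hs hp hκ hsm (hpos.mono fun x hx => hx.le) hk2, hpos] with x h1 h2
    rw [lt_div_iff₀ h2]
    nlinarith
  · intro k hk
    obtain ⟨X, hX⟩ := eventually_atBot.mp hpos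
    rw [eventually_atBot]
    refine ⟨X, fun x hx => ?_⟩
    have h1 := upper hs hp.nonneg hκ hsm (x := x) (fun t ht => (hX t (le_trans ht hx)).le)
    have h2 := hX x hx
    rw [div_lt_iff₀ h2]
    nlinarith

theorem ratio_bot (hs : Sol V κ y y1) (hp : Pot V) (hκ : 0 < κ)
    (hsm : ∀ ε > 0, ∃ᶠ x in atBot, |y x| < ε ∧ |y1 x| < ε) (hne : ∃ x, y x ≠ 0) :
    Tendsto (fun x => y1 x / y x) atBot (𝓝 κ) := by
  rcases eventually_sign hs hp hκ hsm hne with h | h
  · exact ratio_bot_pos hs hp hκ hsm h
  · have h1 := ratio_bot_pos hs.neg hp hκ (by intro ε hε; simpa using hsm ε hε)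
      (h.mono fun x hx => by linarith)
    refine h1.congr (fun x => ?_)
    rw [neg_div_neg_eq]

theorem ratio_top (hs : Sol V κ y y1) (hp : Pot V) (hκ : 0 < κ)
    (hsm : Small y y1) (hne : ∃ x, y x ≠ 0) :
    Tendsto (fun x => y1 x / y x) atTop (𝓝 (-κ)) := by
  have h1 := ratio_bot hs.refl hp.refl hκ hsm.refl.bot
    (by obtain ⟨x, hx⟩ := hne; exact ⟨-x, by simpa using hx⟩)
  have h2 := (h1.comp tendsto_neg_atTop_atBot).neg
  refine h2.congr (fun x => ?_)
  simp [Function.comp_def, neg_div]

end

end P371H29
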