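import Mathlib

open Set
open scoped Topology

namespace P371H29

/-- the constant of the tangent inequality -/
noncomputable def Cp (p : ℝ) : ℝ := p * (p / (p - 1)) ^ (p - 1)

theorem Cp_pos {p : ℝ} (hp : 1 < p) : 0 < Cp p := by
  unfold Cp
  have h1 : 0 < p - 1 := by linarith
  have h2 : 0 < p / (p - 1) := by positivity
  positivity

theorem tangent {p : ℝ} (hp : 1 < p) {w u : ℝ} (hw : 0 ≤ w) (hu : 0 ≤ u) :
    Cp p * u ^ (p - 1) * (w - u) ≤ w ^ p := by
  have hp1 : 0 < p - 1 := by linarith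
  rcases hu.eq_or_lt with h0 | hpos
  · rw [← h0, Real.zero_rpow hp1.ne']
    simp only [mul_zero, zero_mul]
    exact Real.rpow_nonneg hw p
  · set q := p / (p - 1) with hq
    have hqpos : 0 < q := by positivity
    set z := q * u with hz
    have hzpos : 0 < z := by positivity
    have hbern := one_add_mul_self_le_rpow_one_add (s := w / z - 1) (p := p)
      (by have : 0 ≤ w / z := by positivity
          linarith) hp.le
    have h1 : 1 + (w / z - 1) = w / z := by ring
    rw [h1, Real.div_rpow hw hzpos.le, le_div_iff₀ (by positivity)] at hbern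
    have h2 : z ^ p = z ^ (p - 1) * z := by
      rw [← Real.rpow_add_one hzpos.ne']
      congr 1
      ring
    have h3 : z ^ (p - 1) = q ^ (p - 1) * u ^ (p - 1) := by
      rw [hz, Real.mul_rpow hqpos.le hpos.le]
    have h4 : (1 + p * (w / z - 1)) * z ^ p = z ^ (p - 1) * (p * w - (p - 1) * z) := by
      rw [h2]
      field_simp
      ring
    rw [h4] at hbern
    have h5 : (p - 1) * z = p * u := by
      rw [hz, hq]
      field_simp
    rw [h5, h3] at hbern
    unfold Cp
    rw [← hq]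
    nlinarith [hbern]

theorem Cp_le_two_rpow {p : ℝ} (hp : 1 < p) : Cp p ≤ 2 ^ p := by
  have := tangent hp (w := 2) (u := 1) (by norm_num) (by norm_num)
  rw [Real.one_rpow] at this
  linarith

theorem Cp_le_two_mul {p : ℝ} (hp : 1 < p) (hp2 : p ≤ 2) : Cp p ≤ 2 * p := by
  unfold Cp
  have hp1 : 0 < p - 1 := by linarith
  have h := rpow_one_add_le_one_add_mul_self (s := 1 / (p - 1)) (p := p - 1)
    (by have : 0 ≤ 1 / (p-1) := by positivity
        linarith) hp1.le (by linarith)
  have h1 : 1 + 1 / (p - 1) = p / (p - 1) := by field_simp; ring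
  have h2 : (p - 1) * (1 / (p - 1)) = 1 := by field_simp
  rw [h1, h2] at h
  nlinarith [h]

/-- symmetric sums of a concave power decrease -/
theorem symm_sum_anti {a : ℝ} (ha : 0 ≤ a) (ha1 : a ≤ 1) {s t : ℝ} (hs : 0 ≤ s) (hst : s ≤ t)
    (ht : t ≤ 1) : (1 + t) ^ a + (1 - t) ^ a ≤ (1 + s) ^ a + (1 - s) ^ a := by
  rcases hst.eq_or_lt with h | h
  · rw [h]
  have htpos : 0 < t := by linarith
  have hc := Real.concaveOn_rpow ha ha1
  have hx : (1 + t) ∈ Ici (0:ℝ) := by simp; linarith
  have hy : (1 - t) ∈ Ici (0:ℝ) := by simp; linarith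
  have hl0 : 0 ≤ (t + s) / (2 * t) := by positivity
  have hl1 : 0 ≤ (t - s) / (2 * t) := by
    apply div_nonneg <;> linarith
  have hsum : (t + s) / (2 * t) + (t - s) / (2 * t) = 1 := by field_simp; ring
  have e1 := hc.2 hx hy hl0 hl1 hsum
  have e2 := hc.2 hx hy hl1 hl0 (by rw [add_comm]; exact hsum)
  simp only [smul_eq_mul] at e1 e2
  have k1 : (t + s) / (2 * t) * (1 + t) + (t - s) / (2 * t) * (1 - t) = 1 + s := by
    field_simp; ring
  have k2 : (t - s) / (2 * t) * (1 + t) + (t + s) / (2 * t) * (1 - t) = 1 - s := by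
    field_simp; ring
  rw [k1] at e1
  rw [k2] at e2
  have k3 : (t - s) / (2 * t) = 1 - (t + s) / (2 * t) := by linarith
  rw [k3] at e1 e2
  nlinarith [e1, e2]

theorem hasDerivAt_h {p : ℝ} (hp : 1 < p) (s : ℝ) :
    HasDerivAt (fun s : ℝ => (1 + s) ^ p - (1 - s) ^ p)
      (p * ((1 + s) ^ (p - 1) + (1 - s) ^ (p - 1))) s := by
  have h1 : HasDerivAt (fun s : ℝ => (1 + s) ^ p) (1 * p * (1 + s) ^ (p - 1)) s :=
    HasDerivAt.rpow_const (((hasDerivAt_id s).const_add 1)) (Or.inr hp.le)
  have h2 : HasDerivAt (fun s : ℝ => (1 - s) ^ p) (-1 * p * (1 - s) ^ (p - 1)) s :=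
    HasDerivAt.rpow_const (((hasDerivAt_id s).const_sub 1)) (Or.inr hp.le)
  refine (h1.sub h2).congr_deriv ?_
  ring

theorem concave_h {p : ℝ} (hp : 1 < p) (hp2 : p ≤ 2) :
    ConcaveOn ℝ (Icc 0 1) (fun s : ℝ => (1 + s) ^ p - (1 - s) ^ p) := by
  apply AntitoneOn.concaveOn_of_deriv (convex_Icc 0 1)
  · exact (HasDerivAt.continuousOn fun x _ => hasDerivAt_h hp x)
  · exact fun x _ => (hasDerivAt_h hp x).differentiableAt.differentiableWithinAt
  · rw [interior_Icc]
    intro x hx y hy hxy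
    rw [(hasDerivAt_h hp x).deriv, (hasDerivAt_h hp y).deriv]
    have := symm_sum_anti (a := p - 1) (by linarith) (by linarith) hx.1.le hxy hy.2.le
    have hp0 : 0 < p := by linarith
    exact mul_le_mul_of_nonneg_left this hp0.le

theorem h_lower {p : ℝ} (hp : 1 < p) (hp2 : p ≤ 2) {s : ℝ} (hs : s ∈ Icc (0:ℝ) 1) :
    2 ^ p * s ≤ (1 + s) ^ p - (1 - s) ^ p := by
  have hz : (0:ℝ) ∈ Icc (0:ℝ) 1 := by simp
  have ho : (1:ℝ) ∈ Icc (0:ℝ) 1 := by simp
  have hc := (concave_h hp hp2).2 hz ho (sub_nonneg.mpr hs.2) hs.1 (by ring)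
  simp only [smul_eq_mul, mul_zero, mul_one, zero_add, add_zero, sub_zero, Real.one_rpow,
    sub_self] at hc
  have hp0 : p ≠ 0 := by linarith
  rw [Real.zero_rpow hp0] at hc
  norm_num at hc
  linarith

theorem h_upper {p : ℝ} (hp : 1 < p) (hp2 : p ≤ 2) {s : ℝ} (hs : s ∈ Icc (0:ℝ) 1) :
    (1 + s) ^ p - (1 - s) ^ p ≤ 2 * p * s := by
  have hmono : MonotoneOn (fun t : ℝ => 2 * p * t - ((1 + t) ^ p - (1 - t) ^ p)) (Icc 0 1) := by
    apply monotoneOn_of_deriv_nonneg (convex_Icc 0 1)
    · intro x _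
      have := ((hasDerivAt_id x).const_mul (2 * p)).sub (hasDerivAt_h hp x)
      exact this.continuousAt.continuousWithinAt
    · intro x _
      have := ((hasDerivAt_id x).const_mul (2 * p)).sub (hasDerivAt_h hp x)
      exact this.differentiableAt.differentiableWithinAt
    · intro x hx
      rw [interior_Icc] at hx
      have := ((hasDerivAt_id x).const_mul (2 * p)).sub (hasDerivAt_h hp x)
      have hd : deriv (fun t : ℝ => 2 * p * t - ((1 + t) ^ p - (1 - t) ^ p)) x =
        2 * p * 1 - p * ((1 + x) ^ (p - 1) + (1 - x) ^ (p - 1)) := this.deriv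
      rw [hd]
      have h2 := symm_sum_anti (a := p - 1) (by linarith) (by linarith) le_rfl hx.1.le hx.2.le
      simp only [add_zero, Real.one_rpow, sub_zero] at h2
      have hp0 : 0 < p := by linarith
      nlinarith [h2]
  have := hmono (left_mem_Icc.mpr zero_le_one) hs hs.1
  simp only [mul_zero, add_zero, sub_zero, Real.one_rpow, sub_self] at this
  linarith

/-- commutation inequality when the logarithmic derivative decreases -/
theorem comm_nonneg {p : ℝ} (hp : 1 < p) (hp2 : p ≤ 2) {w u : ℝ} (hu : 0 ≤ u) (hw : u ≤ w) :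
    Cp p * u ^ (p - 1) * (w - u) + (max (2 * u - w) 0) ^ p ≤ w ^ p := by
  have hp0 : p ≠ 0 := by linarith
  by_cases hc : 2 * u ≤ w
  · rw [max_eq_right (by linarith), Real.zero_rpow hp0, add_zero]
    exact tangent hp (by linarith) hu
  · push Not at hc
    have hupos : 0 < u := by linarith
    rw [max_eq_left (by linarith)]
    set s := (w - u) / u with hs
    have hs0 : 0 ≤ s := by rw [hs]; apply div_nonneg <;> linarith
    have hs1 : s ≤ 1 := by rw [hs, div_le_one hupos]; linarith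
    have e1 : w = u * (1 + s) := by rw [hs]; field_simp; ring
    have e2 : 2 * u - w = u * (1 - s) := by rw [hs]; field_simp; ring
    have e3 : w - u = u * s := by rw [hs]; field_simp
    have e4 : u ^ p = u ^ (p - 1) * u := by
      rw [← Real.rpow_add_one hupos.ne']
      congr 1
      ring
    rw [e2, e3]
    conv_rhs => rw [e1]
    rw [Real.mul_rpow hupos.le (by linarith), Real.mul_rpow hupos.le (by linarith)]
    have hl := h_lower hp hp2 (s := s) ⟨hs0, hs1⟩
    have hC := Cp_le_two_rpow hp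
    have hup : 0 < u ^ (p - 1) := by positivity
    have h1 : Cp p * s ≤ (1 + s) ^ p - (1 - s) ^ p := by nlinarith
    rw [e4]
    have h2 : 0 ≤ u ^ (p - 1) * u * ((1 + s) ^ p - (1 - s) ^ p - Cp p * s) := by
      apply mul_nonneg
      · positivity
      · linarith
    nlinarith [h2]

/-- the elementary condition on the weight -/
def GoodTheta (p θ : ℝ) : Prop :=
  0 ≤ θ ∧ θ ≤ 1 ∧ ∀ s ∈ Icc (0:ℝ) 1, θ * (1 + s) ^ p ≤ (1 - s) ^ p + Cp p * s

/-- commutation inequality in general -/
theorem comm_gen {p θ : ℝ} (hp : 1 < p) (hp2 : p ≤ 2) (hθ : GoodTheta p θ) {w u : ℝ}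
    (hu : 0 ≤ u) (hw : 0 ≤ w) :
    Cp p * u ^ (p - 1) * (w - u) + θ * (max (2 * u - w) 0) ^ p ≤ w ^ p := by
  by_cases hc : u ≤ w
  · have h1 := comm_nonneg hp hp2 hu hc
    have h2 : 0 ≤ (max (2 * u - w) 0) ^ p := Real.rpow_nonneg (le_max_right _ _) _
    nlinarith [hθ.2.1]
  · push Not at hc
    have hupos : 0 < u := by linarith
    rw [max_eq_left (by linarith)]
    set s := (u - w) / u with hs
    have hs0 : 0 ≤ s := by rw [hs]; apply div_nonneg <;> linarith
    have hs1 : s ≤ 1 := by rw [hs, div_le_one hupos]; linarith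
    have e1 : w = u * (1 - s) := by rw [hs]; field_simp; ring
    have e2 : 2 * u - w = u * (1 + s) := by rw [hs]; field_simp; ring
    have e3 : w - u = - (u * s) := by rw [hs]; field_simp; ring
    have e4 : u ^ p = u ^ (p - 1) * u := by
      rw [← Real.rpow_add_one hupos.ne']
      congr 1
      ring
    rw [e2, e3]
    conv_rhs => rw [e1]
    rw [Real.mul_rpow hupos.le (by linarith), Real.mul_rpow hupos.le (by linarith)]
    have h1 := hθ.2.2 s ⟨hs0, hs1⟩
    rw [e4]
    have h2 : 0 ≤ u ^ (p - 1) * u * ((1 - s) ^ p + Cp p * s - θ * (1 + s) ^ p) := by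
      apply mul_nonneg
      · positivity
      · linarith
    nlinarith [h2]

theorem goodTheta_simple {p : ℝ} (hp : 1 < p) (hp2 : p ≤ 2) :
    GoodTheta p (Cp p / (2 * p)) := by
  have hC := Cp_pos hp
  have hp0 : 0 < p := by linarith
  refine ⟨by positivity, ?_, ?_⟩
  · rw [div_le_one (by positivity)]
    exact Cp_le_two_mul hp hp2
  · intro s hs
    have h1 := h_upper hp hp2 hs
    have h2 : Cp p / (2 * p) ≤ 1 := by
      rw [div_le_one (by positivity)]
      exact Cp_le_two_mul hp hp2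
    have h3 : 0 ≤ Cp p / (2 * p) := by positivity
    have h4 : 0 ≤ (1 - s) ^ p := Real.rpow_nonneg (by linarith [hs.2]) _
    have h5 : Cp p / (2 * p) * (2 * p * s) = Cp p * s := by field_simp
    nlinarith [mul_le_mul_of_nonneg_left h1 h3]

/-- at exponent three halves the weight two over root five is admissible -/
theorem goodTheta_three_halves : GoodTheta (3 / 2) (2 / Real.sqrt 5) := by
  have h5 : (0:ℝ) < Real.sqrt 5 := Real.sqrt_pos.mpr (by norm_num)
  have h5s : Real.sqrt 5 * Real.sqrt 5 = 5 := Real.mul_self_sqrt (by norm_num)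
  have h3 : (0:ℝ) < Real.sqrt 3 := Real.sqrt_pos.mpr (by norm_num)
  have h3s : Real.sqrt 3 * Real.sqrt 3 = 3 := Real.mul_self_sqrt (by norm_num)
  refine ⟨by positivity, ?_, ?_⟩
  · rw [div_le_one h5]
    nlinarith
  · intro s hs
    have hC : Cp (3 / 2) = 3 / 2 * Real.sqrt 3 := by
      unfold Cp
      rw [Real.sqrt_eq_rpow]
      norm_num
    rw [hC]
    set y := Real.sqrt (3 * (1 - s)) with hy
    have hy0 : 0 ≤ y := Real.sqrt_nonneg _
    have hys : y * y = 3 * (1 - s) := Real.mul_self_sqrt (by linarith [hs.2])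
    have hy3 : y * y ≤ 3 := by rw [hys]; linarith [hs.1]
    -- the two powers
    have e1 : (1 - s) ^ (3 / 2 : ℝ) = y ^ 3 / (3 * Real.sqrt 3) := by
      have hsq : Real.sqrt (1 - s) = y / Real.sqrt 3 := by
        rw [hy, Real.sqrt_mul (by norm_num)]
        field_simp
      have : (1 - s) ^ (3 / 2 : ℝ) = (1 - s) * Real.sqrt (1 - s) := by
        rw [Real.sqrt_eq_rpow]
        rcases (sub_nonneg.mpr hs.2).eq_or_lt with h | h
        · rw [← h]
          norm_num
        · nth_rewrite 2 [← Real.rpow_one (1 - s)]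
          rw [← Real.rpow_add h]
          norm_num
      rw [this, hsq]
      have : 1 - s = y * y / 3 := by linarith
      rw [this]
      field_simp
    have hpow : ((1 + s) ^ (3 / 2 : ℝ)) ^ 2 = (1 + s) ^ 3 := by
      rw [← Real.rpow_natCast, ← Real.rpow_mul (by linarith [hs.1]),
        ← Real.rpow_natCast]
      norm_num
    have hR : (1 - s) ^ (3 / 2 : ℝ) + 3 / 2 * Real.sqrt 3 * s
        = (y ^ 3 - 9 / 2 * y ^ 2 + 27 / 2) / (3 * Real.sqrt 3) := by
      rw [e1]
      have : s = 1 - y * y / 3 := by linarith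
      rw [this]
      field_simp
      nlinarith [h3s]
    rw [hR]
    have hnum : 0 ≤ y ^ 3 - 9 / 2 * y ^ 2 + 27 / 2 := by nlinarith [mul_nonneg hy0 (sq_nonneg y)]
    apply le_of_sq_le_sq _ (by positivity)
    rw [mul_pow, hpow, div_pow, div_pow]
    have a1 : Real.sqrt 5 ^ 2 = 5 := by rw [sq, h5s]
    have a2 : (3 * Real.sqrt 3) ^ 2 = 27 := by rw [mul_pow, sq (Real.sqrt 3), h3s]; norm_num
    rw [a1, a2]
    have hs3 : s = 1 - y * y / 3 := by linarith
    rw [hs3]
    have hyle : y ≤ 2 := by nlinarith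
    have key : 0 ≤ (y - 1) ^ 2 * ((2 * y ^ 2 - 3 * y - 6) ^ 2 + 6 * y - 15) := by
      apply mul_nonneg (sq_nonneg _)
      have : 2 * y ^ 2 - 3 * y - 6 ≤ - 4 := by nlinarith
      nlinarith
    rw [le_div_iff₀ (by norm_num)]
    nlinarith [key]

end P371H29
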