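import Mathlib
import Vale.Agent.Lib.P371H29.Pointwise

open Set MeasureTheory
open scoped Topology

namespace P371H29

/-- the positive part of k squared minus t squared, to the power p minus one -/
noncomputable def phi (p κ t : ℝ) : ℝ := (max (κ ^ 2 - t ^ 2) 0) ^ (p - 1)

/-- its primitive vanishing at zero -/
noncomputable def Phi (p κ s : ℝ) : ℝ := ∫ t in (0:ℝ)..s, phi p κ t

theorem phi_cont {p : ℝ} (hp : 1 < p) (κ : ℝ) : Continuous (phi p κ) := by
  unfold phi
  apply Continuous.rpow_const (by fun_prop)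
  intro x
  right
  linarith

theorem phi_nonneg (p κ t : ℝ) : 0 ≤ phi p κ t := Real.rpow_nonneg (le_max_right _ _) _

theorem Phi_hasDerivAt {p : ℝ} (hp : 1 < p) (κ s : ℝ) : HasDerivAt (Phi p κ) (phi p κ s) s := by
  unfold Phi
  exact intervalIntegral.integral_hasDerivAt_right ((phi_cont hp κ).intervalIntegrable _ _)
    ((phi_cont hp κ).stronglyMeasurableAtFilter _ _) (phi_cont hp κ).continuousAt

theorem Phi_mono {p : ℝ} (hp : 1 < p) (κ : ℝ) : Monotone (Phi p κ) := by
  apply monotone_of_deriv_nonneg (fun x => (Phi_hasDerivAt hp κ x).differentiableAt)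
  intro x
  rw [(Phi_hasDerivAt hp κ x).deriv]
  exact phi_nonneg _ _ _

theorem Phi_cont {p : ℝ} (hp : 1 < p) (κ : ℝ) : Continuous (Phi p κ) := by
  rw [continuous_iff_continuousAt]
  intro x
  exact (Phi_hasDerivAt hp κ x).continuousAt

theorem Phi_neg (p κ s : ℝ) : Phi p κ (-s) = - Phi p κ s := by
  unfold Phi
  have h := intervalIntegral.integral_comp_neg (f := phi p κ) (a := 0) (b := -s)
  simp only [neg_zero, neg_neg] at h
  have h2 : (fun x => phi p κ (-x)) = phi p κ := by
    ext x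
    unfold phi
    rw [neg_sq]
  rw [h2] at h
  rw [h, intervalIntegral.integral_symm]

theorem phi_zero_of_ge {p κ t : ℝ} (hp : 1 < p) (hκ : 0 ≤ κ) (ht : κ ≤ |t|) : phi p κ t = 0 := by
  unfold phi
  have h1 : κ ^ 2 ≤ t ^ 2 := by
    rw [← sq_abs t]
    exact pow_le_pow_left₀ hκ ht 2
  rw [max_eq_right (by linarith), Real.zero_rpow (by linarith)]

theorem Phi_le {p κ : ℝ} (hp : 1 < p) (hκ : 0 ≤ κ) (s : ℝ) : Phi p κ s ≤ Phi p κ κ := by
  rcases le_or_gt s κ with h | h
  · exact Phi_mono hp κ h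
  · have : Phi p κ s - Phi p κ κ = ∫ t in κ..s, phi p κ t := by
      unfold Phi
      rw [intervalIntegral.integral_interval_sub_left ((phi_cont hp κ).intervalIntegrable _ _)
        ((phi_cont hp κ).intervalIntegrable _ _)]
    have h0 : ∫ t in κ..s, phi p κ t = 0 := by
      apply intervalIntegral.integral_zero_ae
      filter_upwards with t ht
      rw [uIoc_of_le h.le] at ht
      apply phi_zero_of_ge hp hκ
      rw [abs_of_nonneg (by linarith [ht.1])]
      exact ht.1.le
    linarith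

theorem Phi_ge {p κ : ℝ} (hp : 1 < p) (hκ : 0 ≤ κ) (s : ℝ) : - Phi p κ κ ≤ Phi p κ s := by
  have := Phi_le hp hκ (-s)
  rw [Phi_neg] at this
  linarith

theorem Phi_scale {p κ : ℝ} (hp : 1 < p) (hκ : 0 < κ) :
    Phi p κ κ = κ ^ (2 * p - 1) * Phi p 1 1 := by
  unfold Phi
  have h := intervalIntegral.integral_comp_mul_left (f := phi p κ) (a := 0) (b := 1) hκ.ne'
  simp only [mul_zero, mul_one, smul_eq_mul] at h
  have h2 : ∫ x in (0:ℝ)..1, phi p κ (κ * x) = κ ^ (2 * (p - 1)) * ∫ x in (0:ℝ)..1, phi p 1 x := by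
    rw [← intervalIntegral.integral_const_mul]
    congr 1
    ext x
    unfold phi
    have : max (κ ^ 2 - (κ * x) ^ 2) 0 = κ ^ 2 * max (1 ^ 2 - x ^ 2) 0 := by
      rw [mul_max_of_nonneg _ _ (sq_nonneg κ)]
      congr 1
      · ring
      · ring
    rw [this, Real.mul_rpow (by positivity) (le_max_right _ _), Real.rpow_mul hκ.le]
    norm_num
  rw [h2] at h
  have h3 : (2 * p - 1) = 2 * (p - 1) + 1 := by ring
  rw [h3, Real.rpow_add_one hκ.ne']
  field_simp at h
  linarith [h]

theorem Phi_strict {p κ κ' : ℝ} (hp : 1 < p) (hκ : 0 < κ) (h : κ ≤ κ') :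
    Phi p κ κ ≤ Phi p κ' κ' := by
  have hκ' : 0 < κ' := by linarith
  have e1 := Phi_scale hp hκ
  have e2 := Phi_scale hp hκ'
  rw [e1, e2]
  have h1 : 0 ≤ Phi p 1 1 := by
    unfold Phi
    exact intervalIntegral.integral_nonneg (by norm_num) (fun x _ => phi_nonneg _ _ _)
  apply mul_le_mul_of_nonneg_right _ h1
  exact Real.rpow_le_rpow hκ.le h (by linarith)

theorem Phi_nonneg {p κ : ℝ} (hκ : 0 ≤ κ) : 0 ≤ Phi p κ κ := by
  unfold Phi
  exact intervalIntegral.integral_nonneg hκ (fun x _ => phi_nonneg _ _ _)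

end P371H29
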