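import Mathlib
import Vale.Agent.Lib.P371H29.Phi

open MeasureTheory Set
open scoped Topology

namespace P371H29

theorem beta_real {p : ℝ} (hp : 1 < p) :
    ∫ x in (0:ℝ)..1, x ^ (p - 1) * (1 - x) ^ (p - 1) = ProbabilityTheory.beta p p := by
  rw [ProbabilityTheory.beta_eq_betaIntegralReal p p (by linarith) (by linarith)]
  unfold Complex.betaIntegral
  have h1 : ∫ x in (0:ℝ)..1, ((x:ℂ) ^ ((p:ℂ) - 1) * (1 - (x:ℂ)) ^ ((p:ℂ) - 1)) =
      ∫ x in (0:ℝ)..1, ((x ^ (p - 1) * (1 - x) ^ (p - 1) : ℝ) : ℂ) := by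
    apply intervalIntegral.integral_congr
    intro x hx
    rw [uIcc_of_le zero_le_one] at hx
    simp only
    rw [Complex.ofReal_mul, Complex.ofReal_cpow hx.1, Complex.ofReal_cpow (by linarith [hx.2])]
    push_cast
    ring
  rw [h1, intervalIntegral.integral_ofReal, Complex.ofReal_re]

theorem two_Phi_one {p : ℝ} (hp : 1 < p) :
    2 * Phi p 1 1 = 2 * 4 ^ (p - 1) * ProbabilityTheory.beta p p := by
  have h1 : 2 * Phi p 1 1 = ∫ s in (-1:ℝ)..1, phi p 1 s := by
    have h2 : Phi p 1 1 - Phi p 1 (-1) = ∫ s in (-1:ℝ)..1, phi p 1 s := by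
      unfold Phi
      exact intervalIntegral.integral_interval_sub_left ((phi_cont hp 1).intervalIntegrable _ _)
        ((phi_cont hp 1).intervalIntegrable _ _)
    rw [Phi_neg] at h2
    linarith
  rw [h1]
  have h3 := intervalIntegral.integral_comp_mul_add (f := phi p 1) (a := 0) (b := 1)
    (c := 2) (by norm_num) (-1)
  rw [show (2:ℝ) * 0 + -1 = -1 by norm_num, show (2:ℝ) * 1 + -1 = 1 by norm_num, smul_eq_mul] at h3
  have h4 : ∫ x in (0:ℝ)..1, phi p 1 (2 * x + -1) =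
      4 ^ (p - 1) * ∫ x in (0:ℝ)..1, x ^ (p - 1) * (1 - x) ^ (p - 1) := by
    rw [← intervalIntegral.integral_const_mul]
    apply intervalIntegral.integral_congr
    intro x hx
    rw [uIcc_of_le zero_le_one] at hx
    simp only
    unfold phi
    have h5 : (1:ℝ) ^ 2 - (2 * x + -1) ^ 2 = 4 * (x * (1 - x)) := by ring
    have h6 : 0 ≤ x * (1 - x) := mul_nonneg hx.1 (by linarith [hx.2])
    rw [h5, max_eq_left (by linarith), Real.mul_rpow (by norm_num) h6,
      Real.mul_rpow hx.1 (by linarith [hx.2])]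
  rw [h4, beta_real hp] at h3
  linarith

/-- the semiclassical constant -/
noncomputable def Lcl (γ : ℝ) : ℝ := Real.Gamma (γ + 1) / (2 * Real.sqrt Real.pi * Real.Gamma (γ + 3 / 2))

/-- the one bound state constant -/
noncomputable def L1 (γ : ℝ) : ℝ := 2 * ((γ - 1 / 2) / (γ + 1 / 2)) ^ (γ - 1 / 2) * Lcl γ

theorem L1_mul {γ : ℝ} (hγ : 1 / 2 < γ) :
    L1 γ * (Cp (γ + 1 / 2) * (2 * Phi (γ + 1 / 2) 1 1)) = 1 := by
  set p := γ + 1 / 2 with hp
  have hp1 : 1 < p := by linarith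
  have hp0 : 0 < p := by linarith
  have hpm : 0 < p - 1 := by linarith
  rw [two_Phi_one hp1]
  unfold L1 Lcl Cp ProbabilityTheory.beta
  have e1 : γ - 1 / 2 = p - 1 := by rw [hp]; ring
  have e2 : γ + 1 = p + 1 / 2 := by rw [hp]; ring
  have e3 : γ + 3 / 2 = p + 1 := by rw [hp]; ring
  rw [e1, e2, e3, Real.Gamma_add_one hp0.ne']
  have hG := Real.Gamma_mul_Gamma_add_half p
  have g1 : 0 < Real.Gamma p := Real.Gamma_pos_of_pos hp0
  have g2 : 0 < Real.Gamma (p + 1 / 2) := Real.Gamma_pos_of_pos (by linarith)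
  have g3 : 0 < Real.Gamma (p + p) := Real.Gamma_pos_of_pos (by linarith)
  have hpi : 0 < Real.sqrt Real.pi := Real.sqrt_pos.mpr Real.pi_pos
  have e4 : ((p - 1) / p) ^ (p - 1) * (p / (p - 1)) ^ (p - 1) = 1 := by
    rw [← Real.mul_rpow (by positivity) (by positivity)]
    have : (p - 1) / p * (p / (p - 1)) = 1 := by field_simp
    rw [this, Real.one_rpow]
  have e5 : (4:ℝ) ^ (p - 1) = 2 ^ (2 * p - 1) / 2 := by
    have : (4:ℝ) = 2 ^ (2:ℝ) := by norm_num
    rw [this, ← Real.rpow_mul (by norm_num), eq_div_iff (by norm_num)]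
    have h2 : (2:ℝ) ^ (2 * p - 1) = 2 ^ (2 * (p - 1)) * 2 := by
      rw [← Real.rpow_add_one (by norm_num)]
      congr 1
      ring
    rw [h2]
  have e6 : (2:ℝ) ^ (1 - 2 * p) * 2 ^ (2 * p - 1) = 1 := by
    rw [← Real.rpow_add (by norm_num)]
    norm_num
  have e7 : Real.Gamma (2 * p) = Real.Gamma (p + p) := by rw [two_mul]
  rw [e7] at hG
  rw [e5]
  set A := ((p - 1) / p) ^ (p - 1) with hA
  set B := (p / (p - 1)) ^ (p - 1) with hB
  set T := (2:ℝ) ^ (2 * p - 1) with hT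
  set U := (2:ℝ) ^ (1 - 2 * p) with hU
  have key : 2 * A * (Real.Gamma (p + 1 / 2) / (2 * Real.sqrt Real.pi * (p * Real.Gamma p))) *
      (p * B * (2 * (T / 2) * (Real.Gamma p * Real.Gamma p / Real.Gamma (p + p)))) =
      (A * B) * T * (Real.Gamma p * Real.Gamma (p + 1 / 2)) / (Real.sqrt Real.pi * Real.Gamma (p + p)) := by
    field_simp
  rw [key, e4, hG]
  have key2 : 1 * T * (Real.Gamma (p + p) * U * Real.sqrt Real.pi) /
      (Real.sqrt Real.pi * Real.Gamma (p + p)) = U * T := by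
    field_simp
  rw [key2, e6]

theorem L1_pos {γ : ℝ} (hγ : 1 / 2 < γ) : 0 < L1 γ := by
  have h := L1_mul hγ
  have h1 : 0 ≤ Cp (γ + 1 / 2) * (2 * Phi (γ + 1 / 2) 1 1) := by
    have := Cp_pos (p := γ + 1 / 2) (by linarith)
    have := Phi_nonneg (p := γ + 1 / 2) (κ := 1) zero_le_one
    positivity
  by_contra hc
  push Not at hc
  have := mul_nonpos_of_nonpos_of_nonneg hc h1
  linarith

/-- conversion of the primitive to the power of the eigenvalue -/
theorem level {γ κ : ℝ} (hγ : 1 / 2 < γ) (hκ : 0 < κ) :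
    L1 γ * (Cp (γ + 1 / 2) * (2 * Phi (γ + 1 / 2) κ κ)) = (κ ^ 2) ^ γ := by
  rw [Phi_scale (by linarith) hκ]
  have h := L1_mul hγ
  have e : (κ ^ 2) ^ γ = κ ^ (2 * (γ + 1 / 2) - 1) := by
    rw [← Real.rpow_natCast, ← Real.rpow_mul hκ.le]
    congr 1
    push_cast
    ring
  rw [e]
  linear_combination κ ^ (2 * (γ + 1 / 2) - 1) * h

end P371H29
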