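import Mathlib
import Vale.Agent.Lib.P371H29.Asym
import Vale.Agent.Lib.P371H29.Phi

open MeasureTheory Set Filter
open scoped Topology

namespace P371H29

section

variable {V : ℝ → ℝ} {κ : ℝ} {y y1 : ℝ → ℝ} {a b : ℝ}

theorem ac_inv (hs : Sol V κ y y1) (hne : ∀ x ∈ uIcc a b, y x ≠ 0) :
    AbsolutelyContinuousOnInterval (fun x => (y x)⁻¹) a b := by
  apply ac_of_c1 (f' := fun x => -y1 x / (y x) ^ 2)
  · intro x hx
    exact (hs.hd x).inv (hne x hx)
  · apply ContinuousOn.div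
    · exact hs.cont1.neg.continuousOn
    · exact (hs.cont.pow 2).continuousOn
    · intro x hx
      exact pow_ne_zero 2 (hne x hx)

theorem ac_ratio (hs : Sol V κ y y1) (hne : ∀ x ∈ uIcc a b, y x ≠ 0) :
    AbsolutelyContinuousOnInterval (fun x => y1 x / y x) a b := by
  have := (hs.ac_y1 a b).fun_mul (ac_inv hs hne)
  simpa [div_eq_mul_inv] using this

theorem ratio_ae (hs : Sol V κ y y1) :
    ∀ᵐ x, y x ≠ 0 → HasDerivAt (fun x => y1 x / y x) (κ ^ 2 - V x - (y1 x / y x) ^ 2) x := by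
  filter_upwards [hs.ae_deriv] with x hx hne
  refine (hx.div (hs.hd x) hne).congr_deriv ?_
  field_simp

/-- fundamental theorem of calculus for the primitive evaluated at the logarithmic derivative -/
theorem ftc_Phi {p κ' : ℝ} (hp : 1 < p) (hs : Sol V κ y y1) (hne : ∀ x ∈ uIcc a b, y x ≠ 0) :
    IntervalIntegrable (fun x => phi p κ' (y1 x / y x) * (κ ^ 2 - V x - (y1 x / y x) ^ 2)) volume a b ∧
    ∫ x in a..b, phi p κ' (y1 x / y x) * (κ ^ 2 - V x - (y1 x / y x) ^ 2) =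
      Phi p κ' (y1 b / y b) - Phi p κ' (y1 a / y a) := by
  apply ftc_ac (f := fun x => Phi p κ' (y1 x / y x))
  · exact ac_c1_comp (ac_ratio hs hne) (Phi_hasDerivAt hp κ') (phi_cont hp κ')
  · filter_upwards [ratio_ae hs] with x hx hxm
    exact (Phi_hasDerivAt hp κ' _).comp x (hx (hne x hxm))

/-- local form of the one bound state inequality -/
theorem keller_local {p : ℝ} (hp : 1 < p) (hs : Sol V κ y y1) (hab : a ≤ b)
    (hne : ∀ x ∈ Icc a b, y x ≠ 0)
    (hVp : IntervalIntegrable (fun x => (max (V x) 0) ^ p) volume a b) :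
    Cp p * (Phi p κ (y1 a / y a) - Phi p κ (y1 b / y b)) ≤ ∫ x in a..b, (max (V x) 0) ^ p := by
  have hne' : ∀ x ∈ uIcc a b, y x ≠ 0 := by rwa [uIcc_of_le hab]
  obtain ⟨h1, h2⟩ := ftc_Phi (κ' := κ) hp hs hne'
  have h3 : Cp p * (Phi p κ (y1 a / y a) - Phi p κ (y1 b / y b)) =
      ∫ x in a..b, -(Cp p) * (phi p κ (y1 x / y x) * (κ ^ 2 - V x - (y1 x / y x) ^ 2)) := by
    rw [intervalIntegral.integral_const_mul, h2]
    ring
  rw [h3]
  apply intervalIntegral.integral_mono_on hab (h1.const_mul _) hVp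
  intro x _
  set F := y1 x / y x
  have hC := Cp_pos hp
  rcases le_or_gt 0 (κ ^ 2 - F ^ 2) with h | h
  · have ht := tangent hp (w := max (V x) 0) (u := κ ^ 2 - F ^ 2) (le_max_right _ _) h
    unfold phi
    rw [max_eq_left h]
    have h4 : 0 ≤ Cp p * (κ ^ 2 - F ^ 2) ^ (p - 1) := by positivity
    have h5 := le_max_left (V x) 0
    nlinarith [mul_le_mul_of_nonneg_left h5 h4]
  · have : phi p κ F = 0 := by
      unfold phi
      rw [max_eq_right h.le, Real.zero_rpow (by linarith)]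
    rw [this]
    have := Real.rpow_nonneg (le_max_right (V x) 0) p
    linarith

/-- local form of the commutation inequality -/
theorem comm_local {p θ : ℝ} (hp : 1 < p) (hp2 : p ≤ 2) (hθ : GoodTheta p θ)
    (hs : Sol V κ y y1) (hV0 : ∀ x, 0 ≤ V x) (hab : a ≤ b)
    (hne : ∀ x ∈ Icc a b, y x ≠ 0)
    (hF : ∀ x ∈ Icc a b, (y1 x / y x) ^ 2 ≤ κ ^ 2)
    (hVp : IntervalIntegrable (fun x => (V x) ^ p) volume a b)
    (hWp : IntervalIntegrable (fun x => (max (2 * (κ ^ 2 - (y1 x / y x) ^ 2) - V x) 0) ^ p) volume a b) :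
    Cp p * (Phi p κ (y1 a / y a) - Phi p κ (y1 b / y b)) +
      θ * ∫ x in a..b, (max (2 * (κ ^ 2 - (y1 x / y x) ^ 2) - V x) 0) ^ p
      ≤ ∫ x in a..b, (V x) ^ p := by
  have hne' : ∀ x ∈ uIcc a b, y x ≠ 0 := by rwa [uIcc_of_le hab]
  obtain ⟨h1, h2⟩ := ftc_Phi (κ' := κ) hp hs hne'
  have h3 : Cp p * (Phi p κ (y1 a / y a) - Phi p κ (y1 b / y b)) =
      ∫ x in a..b, -(Cp p) * (phi p κ (y1 x / y x) * (κ ^ 2 - V x - (y1 x / y x) ^ 2)) := by
    rw [intervalIntegral.integral_const_mul, h2]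
    ring
  rw [h3, ← intervalIntegral.integral_const_mul, ← intervalIntegral.integral_add
    (h1.const_mul _) (hWp.const_mul _)]
  apply intervalIntegral.integral_mono_on hab ((h1.const_mul _).add (hWp.const_mul _)) hVp
  intro x hx
  set F := y1 x / y x with hFdef
  have hu : 0 ≤ κ ^ 2 - F ^ 2 := by linarith [hF x hx]
  have h4 := comm_gen hp hp2 hθ hu (hV0 x)
  unfold phi
  rw [max_eq_left hu]
  calc -Cp p * ((κ ^ 2 - F ^ 2) ^ (p - 1) * (κ ^ 2 - V x - F ^ 2)) +
      θ * (max (2 * (κ ^ 2 - F ^ 2) - V x) 0) ^ p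
      = Cp p * (κ ^ 2 - F ^ 2) ^ (p - 1) * (V x - (κ ^ 2 - F ^ 2)) +
      θ * (max (2 * (κ ^ 2 - F ^ 2) - V x) 0) ^ p := by ring
    _ ≤ _ := h4

/-- the same with weight one when the logarithmic derivative decreases -/
theorem comm_local_anti {p : ℝ} (hp : 1 < p) (hp2 : p ≤ 2)
    (hs : Sol V κ y y1) (hab : a ≤ b)
    (hne : ∀ x ∈ Icc a b, y x ≠ 0)
    (hF : ∀ x ∈ Icc a b, (y1 x / y x) ^ 2 ≤ κ ^ 2)
    (hanti : Antitone (fun x => y1 x / y x))
    (hVp : IntervalIntegrable (fun x => (V x) ^ p) volume a b)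
    (hWp : IntervalIntegrable (fun x => (max (2 * (κ ^ 2 - (y1 x / y x) ^ 2) - V x) 0) ^ p) volume a b) :
    Cp p * (Phi p κ (y1 a / y a) - Phi p κ (y1 b / y b)) +
      1 * ∫ x in a..b, (max (2 * (κ ^ 2 - (y1 x / y x) ^ 2) - V x) 0) ^ p
      ≤ ∫ x in a..b, (V x) ^ p := by
  have hne' : ∀ x ∈ uIcc a b, y x ≠ 0 := by rwa [uIcc_of_le hab]
  obtain ⟨h1, h2⟩ := ftc_Phi (κ' := κ) hp hs hne'
  have h3 : Cp p * (Phi p κ (y1 a / y a) - Phi p κ (y1 b / y b)) =
      ∫ x in a..b, -(Cp p) * (phi p κ (y1 x / y x) * (κ ^ 2 - V x - (y1 x / y x) ^ 2)) := by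
    rw [intervalIntegral.integral_const_mul, h2]
    ring
  rw [h3, one_mul, ← intervalIntegral.integral_add (h1.const_mul _) hWp]
  apply intervalIntegral.integral_mono_ae_restrict hab ((h1.const_mul _).add hWp) hVp
  rw [Filter.EventuallyLE, ae_restrict_iff' measurableSet_Icc]
  filter_upwards [ratio_ae hs] with x hx0 hx
  have hx1 := hx0 (hne x hx)
  have hle : κ ^ 2 - V x - (y1 x / y x) ^ 2 ≤ 0 := by
    rw [← hx1.deriv]
    exact hanti.deriv_nonpos
  set F := y1 x / y x with hFdef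
  have hu : 0 ≤ κ ^ 2 - F ^ 2 := by linarith [hF x hx]
  have h4 := comm_nonneg hp hp2 hu (by linarith : κ ^ 2 - F ^ 2 ≤ V x)
  unfold phi
  rw [max_eq_left hu]
  calc -Cp p * ((κ ^ 2 - F ^ 2) ^ (p - 1) * (κ ^ 2 - V x - F ^ 2)) +
      (max (2 * (κ ^ 2 - F ^ 2) - V x) 0) ^ p
      = Cp p * (κ ^ 2 - F ^ 2) ^ (p - 1) * (V x - (κ ^ 2 - F ^ 2)) +
      (max (2 * (κ ^ 2 - F ^ 2) - V x) 0) ^ p := by ring
    _ ≤ _ := h4

/-- just before a zero the logarithmic derivative is very negative -/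
theorem exists_low (hs : Sol V κ y y1) {c z : ℝ} (hcz : c < z) (hne : ∀ x ∈ Ico c z, y x ≠ 0)
    (hz : y z = 0) (M : ℝ) : ∃ b ∈ Ico c z, y1 b / y b ≤ -M := by
  by_contra hcon
  push Not at hcon
  have hd : ∀ t, HasDerivAt (fun t => y t * y t * Real.exp (2 * M * t))
      ((y1 t * y t + y t * y1 t) * Real.exp (2 * M * t) +
        y t * y t * (Real.exp (2 * M * t) * (2 * M * 1))) t := fun t =>
    ((hs.hd t).mul (hs.hd t)).mul (((hasDerivAt_id t).const_mul (2 * M)).exp)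
  have hmono : MonotoneOn (fun t => y t * y t * Real.exp (2 * M * t)) (Icc c z) := by
    apply monotoneOn_of_deriv_nonneg (convex_Icc _ _)
    · exact fun t _ => (hd t).continuousAt.continuousWithinAt
    · exact fun t _ => (hd t).differentiableAt.differentiableWithinAt
    · intro t ht
      rw [interior_Icc] at ht
      rw [(hd t).deriv]
      have h1 := hcon t ⟨ht.1.le, ht.2⟩
      have h2 := hne t ⟨ht.1.le, ht.2⟩
      have h3 : (y1 t * y t + y t * y1 t) * Real.exp (2 * M * t) +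
        y t * y t * (Real.exp (2 * M * t) * (2 * M * 1)) =
        2 * (y t * y t) * Real.exp (2 * M * t) * (y1 t / y t + M) := by
        field_simp
        ring
      rw [h3]
      have h4 := mul_self_nonneg (y t)
      have h5 := Real.exp_pos (2 * M * t)
      have h6 : 0 ≤ y1 t / y t + M := by linarith
      positivity
  have h1 := hmono (left_mem_Icc.mpr hcz.le) (right_mem_Icc.mpr hcz.le) hcz.le
  simp only [hz, mul_zero, zero_mul] at h1
  have h2 := hne c ⟨le_rfl, hcz⟩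
  have h3 := mul_self_pos.mpr h2
  have h4 := Real.exp_pos (2 * M * c)
  have := mul_pos h3 h4
  linarith

/-- the first zero -/
theorem first_zero (hs : Sol V κ y y1) {X z : ℝ} (hX : ∀ x ≤ X, y x ≠ 0) (hz : y z = 0) :
    ∃ z1 ≤ z, y z1 = 0 ∧ X < z1 ∧ ∀ x < z1, y x ≠ 0 := by
  have hXz : X ≤ z := by
    by_contra h
    push Not at h
    exact hX z h.le hz
  have hcomp : IsCompact (Icc X z ∩ {t | y t = 0}) :=
    isCompact_Icc.inter_right (isClosed_eq hs.cont continuous_const)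
  obtain ⟨z1, hz1, hmin⟩ := hcomp.exists_isLeast ⟨z, ⟨hXz, le_rfl⟩, hz⟩
  refine ⟨z1, hz1.1.2, hz1.2, ?_, ?_⟩
  · by_contra h
    push Not at h
    exact hX z1 h hz1.2
  · intro x hx hyx
    rcases le_or_gt x X with h | h
    · exact hX x h hyx
    · have := hmin ⟨⟨h.le, by linarith [hz1.1.2]⟩, hyx⟩
      linarith

theorem Phi_low {p : ℝ} (hp : 1 < p) (hκ : 0 ≤ κ) {s : ℝ} (hs : s ≤ -κ) :
    Phi p κ s ≤ - Phi p κ κ := by
  rw [← Phi_neg]
  exact Phi_mono hp κ hs

/-- one bound state inequality on a half line that ends at a zero -/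
theorem left_half {p : ℝ} (hp : 1 < p) (hs : Sol V κ y y1) (hκ : 0 ≤ κ)
    (hbot : Tendsto (fun x => y1 x / y x) atBot (𝓝 κ)) (hX : ∃ X, ∀ x ≤ X, y x ≠ 0)
    {z : ℝ} (hz : y z = 0) (hVp : ∀ a b, IntervalIntegrable (fun x => (max (V x) 0) ^ p) volume a b)
    {I : ℝ} (hI : ∀ a b, a ≤ b → b ≤ z → ∫ x in a..b, (max (V x) 0) ^ p ≤ I) :
    Cp p * (2 * Phi p κ κ) ≤ I := by
  obtain ⟨X, hX⟩ := hX
  obtain ⟨z1, hz1z, hz1, hXz1, hne⟩ := first_zero hs hX hz
  have hC := Cp_pos hp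
  apply le_of_forall_pos_le_add
  intro ε hε
  have h1 : Tendsto (fun x => Phi p κ (y1 x / y x)) atBot (𝓝 (Phi p κ κ)) :=
    ((Phi_cont hp κ).tendsto κ).comp hbot
  have h2 := h1.eventually (lt_mem_nhds (a := Phi p κ κ - ε / Cp p)
    (by have : 0 < ε / Cp p := by positivity
        linarith))
  obtain ⟨a, ha1, ha2⟩ := (h2.and (eventually_lt_atBot z1)).exists
  obtain ⟨b, hb1, hb2⟩ := exists_low hs ha2 (fun x hx => hne x hx.2) hz1 κ
  have h3 := keller_local hp hs hb1.1 (fun x hx => hne x (lt_of_le_of_lt hx.2 hb1.2)) (hVp a b)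
  have h4 := hI a b hb1.1 (le_trans hb1.2.le hz1z)
  have h5 := Phi_low hp hκ hb2
  have h6 : Cp p * (2 * Phi p κ κ - ε / Cp p) ≤
      Cp p * (Phi p κ (y1 a / y a) - Phi p κ (y1 b / y b)) := by
    apply mul_le_mul_of_nonneg_left _ hC.le
    linarith
  have h7 : Cp p * (2 * Phi p κ κ - ε / Cp p) = Cp p * (2 * Phi p κ κ) - ε := by
    field_simp
  linarith

/-- one bound state inequality on the whole line without zeros -/
theorem whole_line {p : ℝ} (hp : 1 < p) (hs : Sol V κ y y1)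
    (hbot : Tendsto (fun x => y1 x / y x) atBot (𝓝 κ))
    (htop : Tendsto (fun x => y1 x / y x) atTop (𝓝 (-κ)))
    (hne : ∀ x, y x ≠ 0) (hVp : ∀ a b, IntervalIntegrable (fun x => (max (V x) 0) ^ p) volume a b)
    {I : ℝ} (hI : ∀ a b, a ≤ b → ∫ x in a..b, (max (V x) 0) ^ p ≤ I) :
    Cp p * (2 * Phi p κ κ) ≤ I := by
  have hC := Cp_pos hp
  have hle : ∀ a b, a ≤ b → Cp p * (Phi p κ (y1 a / y a) - Phi p κ (y1 b / y b)) ≤ I := by
    intro a b hab
    exact le_trans (keller_local hp hs hab (fun x _ => hne x) (hVp a b)) (hI a b hab)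
  have h1 : Tendsto (fun x => Phi p κ (y1 x / y x)) atBot (𝓝 (Phi p κ κ)) :=
    ((Phi_cont hp κ).tendsto κ).comp hbot
  have h2 : Tendsto (fun x => Phi p κ (y1 x / y x)) atTop (𝓝 (Phi p κ (-κ))) :=
    ((Phi_cont hp κ).tendsto (-κ)).comp htop
  have h3 : Tendsto (fun x => Cp p * (Phi p κ (y1 (-x) / y (-x)) - Phi p κ (y1 x / y x))) atTop
      (𝓝 (Cp p * (Phi p κ κ - Phi p κ (-κ)))) :=
    ((h1.comp tendsto_neg_atTop_atBot).sub h2).const_mul _
  have h4 : Cp p * (Phi p κ κ - Phi p κ (-κ)) ≤ I := by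
    apply le_of_tendsto h3
    filter_upwards [eventually_ge_atTop 0] with x hx
    exact hle (-x) x (by linarith)
  rw [Phi_neg] at h4
  linarith

/-- one bound state inequality in general -/
theorem keller_any {p : ℝ} (hp : 1 < p) (hs : Sol V κ y y1) (hκ : 0 ≤ κ)
    (hbot : Tendsto (fun x => y1 x / y x) atBot (𝓝 κ))
    (htop : Tendsto (fun x => y1 x / y x) atTop (𝓝 (-κ)))
    (hX : ∃ X, ∀ x ≤ X, y x ≠ 0)
    (hVp : ∀ a b, IntervalIntegrable (fun x => (max (V x) 0) ^ p) volume a b)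
    {I : ℝ} (hI : ∀ a b, a ≤ b → ∫ x in a..b, (max (V x) 0) ^ p ≤ I) :
    Cp p * (2 * Phi p κ κ) ≤ I := by
  by_cases h : ∃ z, y z = 0
  · obtain ⟨z, hz⟩ := h
    exact left_half hp hs hκ hbot hX hz hVp (fun a b hab _ => hI a b hab)
  · push Not at h
    exact whole_line hp hs hbot htop h hVp hI

theorem int_add_le {g : ℝ → ℝ} (hg : ∀ a b, IntervalIntegrable g volume a b) (hg0 : ∀ x, 0 ≤ g x)
    {a b z : ℝ} (ha : a ≤ b) (hb : b ≤ z) : ∫ x in a..b, g x ≤ ∫ x in a..z, g x := by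
  rw [← intervalIntegral.integral_add_adjacent_intervals (hg a b) (hg b z)]
  have : 0 ≤ ∫ x in b..z, g x := intervalIntegral.integral_nonneg hb (fun x _ => hg0 x)
  linarith

/-- with a zero the bound doubles -/
theorem keller_two {p : ℝ} (hp : 1 < p) (hs : Sol V κ y y1) (hκ : 0 ≤ κ)
    (hbot : Tendsto (fun x => y1 x / y x) atBot (𝓝 κ))
    (htop : Tendsto (fun x => y1 x / y x) atTop (𝓝 (-κ)))
    (hX : ∃ X, ∀ x ≤ X, y x ≠ 0) (hX' : ∃ X, ∀ x ≥ X, y x ≠ 0)
    {z : ℝ} (hz : y z = 0)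
    (hVp : ∀ a b, IntervalIntegrable (fun x => (max (V x) 0) ^ p) volume a b)
    {I : ℝ} (hI : ∀ a b, a ≤ b → ∫ x in a..b, (max (V x) 0) ^ p ≤ I) :
    Cp p * (4 * Phi p κ κ) ≤ I := by
  have hg0 : ∀ x, 0 ≤ (max (V x) 0) ^ p := fun x => Real.rpow_nonneg (le_max_right _ _) _
  have h1 : ∀ c, z ≤ c → ∫ x in z..c, (max (V x) 0) ^ p ≤ I - Cp p * (2 * Phi p κ κ) := by
    intro c hc
    have := left_half hp hs hκ hbot hX hz hVp (I := I - ∫ x in z..c, (max (V x) 0) ^ p) (by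
      intro a b hab hbz
      have e1 := int_add_le hVp hg0 hab hbz
      have e2 := hI a c (by linarith)
      rw [← intervalIntegral.integral_add_adjacent_intervals (hVp a z) (hVp z c)] at e2
      linarith)
    linarith
  have h2 := left_half hp hs.refl hκ (z := -z)
    (by
      have := (htop.comp tendsto_neg_atBot_atTop).neg
      rw [neg_neg] at this
      refine this.congr (fun x => ?_)
      simp [neg_div])
    (by
      obtain ⟨X, hX⟩ := hX'
      exact ⟨-X, fun x hx => hX (-x) (by linarith)⟩)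
    (by simpa using hz)
    (by
      intro a b
      have := (IntervalIntegrable.iff_comp_neg).mp (hVp (-a) (-b))
      simpa using this)
    (I := I - Cp p * (2 * Phi p κ κ))
    (by
      intro a b hab hb
      have e := intervalIntegral.integral_comp_neg (f := fun x => (max (V x) 0) ^ p) (a := a) (b := b)
      rw [e]
      have e1 := h1 (-a) (by linarith)
      have e2 : ∫ x in (-b)..(-a), (max (V x) 0) ^ p ≤ ∫ x in z..(-a), (max (V x) 0) ^ p := by
        rw [← intervalIntegral.integral_add_adjacent_intervals (hVp z (-b)) (hVp (-b) (-a))]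
        have : 0 ≤ ∫ x in z..(-b), (max (V x) 0) ^ p :=
          intervalIntegral.integral_nonneg (by linarith) (fun x _ => hg0 x)
        linarith
      linarith)
  linarith

end

end P371H29
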