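import Mathlib
import Vale.Agent.Lib.P371H29.Keller

open MeasureTheory Set Filter
open scoped Topology

namespace P371H29

theorem sol_of_ac {V : ℝ → ℝ} {κ : ℝ} {y y1 : ℝ → ℝ}
    (hV : ∀ a b, IntervalIntegrable V volume a b)
    (hac : ∀ a b, AbsolutelyContinuousOnInterval y a b)
    (hac1 : ∀ a b, AbsolutelyContinuousOnInterval y1 a b)
    (hc : Continuous y1)
    (hae : ∀ᵐ x, HasDerivAt y (y1 x) x)
    (hae1 : ∀ᵐ x, HasDerivAt y1 ((κ ^ 2 - V x) * y x) x) : Sol V κ y y1 where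
  hV := hV
  hd := by
    have h1 : ∀ a b, y b - y a = ∫ t in a..b, y1 t := fun a b =>
      (ftc_ac (hac a b) (hae.mono fun x hx _ => hx)).2.symm
    intro x
    have h2 : y = fun x => y 0 + ∫ t in (0:ℝ)..x, y1 t := by
      ext x
      have := h1 0 x
      linarith
    rw [h2]
    have h3 := intervalIntegral.integral_hasDerivAt_right (hc.intervalIntegrable 0 x)
      (hc.stronglyMeasurableAtFilter _ _) hc.continuousAt
    simpa using h3.const_add (y 0)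
  hi := fun a b => (ftc_ac (hac1 a b) (hae1.mono fun x hx _ => hx)).2.symm

section

variable {V : ℝ → ℝ} {κ₁ κ₂ : ℝ} {f f1 g g1 : ℝ → ℝ}

/-- transformed potential -/
noncomputable def dPot (V : ℝ → ℝ) (κ₁ : ℝ) (f f1 : ℝ → ℝ) (x : ℝ) : ℝ :=
  2 * (κ₁ ^ 2 - (f1 x / f x) ^ 2) - V x

/-- transformed function -/
noncomputable def dY (f f1 g g1 : ℝ → ℝ) (x : ℝ) : ℝ := g1 x - f1 x / f x * g x

/-- derivative of the transformed function -/
noncomputable def dY1 (κ₁ κ₂ : ℝ) (f f1 g g1 : ℝ → ℝ) (x : ℝ) : ℝ :=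
  -(κ₁ ^ 2 - κ₂ ^ 2) * g x - f1 x / f x * dY f f1 g g1 x

theorem ratio_cont (hf : Sol V κ₁ f f1) (hne : ∀ x, f x ≠ 0) : Continuous (fun x => f1 x / f x) :=
  hf.cont1.div hf.cont hne

theorem dPot_int (hf : Sol V κ₁ f f1) (hne : ∀ x, f x ≠ 0) (a b : ℝ) :
    IntervalIntegrable (dPot V κ₁ f f1) volume a b := by
  have h1 : Continuous (fun x => 2 * (κ₁ ^ 2 - (f1 x / f x) ^ 2)) := by
    have := ratio_cont hf hne
    fun_prop
  exact (h1.intervalIntegrable a b).sub (hf.hV a b)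

theorem darboux (hf : Sol V κ₁ f f1) (hne : ∀ x, f x ≠ 0) (hg : Sol V κ₂ g g1) :
    Sol (dPot V κ₁ f f1) κ₂ (dY f f1 g g1) (dY1 κ₁ κ₂ f f1 g g1) := by
  have hr : ∀ a b, AbsolutelyContinuousOnInterval (fun x => f1 x / f x) a b := fun a b =>
    ac_ratio hf (fun x _ => hne x)
  have hY : ∀ a b, AbsolutelyContinuousOnInterval (dY f f1 g g1) a b := fun a b =>
    (hg.ac_y1 a b).fun_sub ((hr a b).fun_mul (hg.ac_y a b))
  have hYae : ∀ᵐ x, HasDerivAt (dY f f1 g g1) (dY1 κ₁ κ₂ f f1 g g1 x) x := by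
    filter_upwards [ratio_ae hf, hg.ae_deriv] with x h1 h2
    refine (h2.sub ((h1 (hne x)).mul (hg.hd x))).congr_deriv ?_
    unfold dY1 dY
    ring
  apply sol_of_ac (dPot_int hf hne) hY
  · intro a b
    exact ((hg.ac_y a b).const_mul _).fun_sub ((hr a b).fun_mul (hY a b))
  · have h1 := ratio_cont hf hne
    have h2 := hg.cont
    have h3 := hg.cont1
    unfold dY1 dY
    fun_prop
  · exact hYae
  · filter_upwards [ratio_ae hf, hYae] with x h1 h2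
    refine (((hg.hd x).const_mul _).sub ((h1 (hne x)).mul h2)).congr_deriv ?_
    unfold dY1 dPot dY
    ring

theorem dY_eq (x : ℝ) (hgx : g x ≠ 0) : dY f f1 g g1 x = g x * (g1 x / g x - f1 x / f x) := by
  unfold dY
  field_simp

theorem dY_ratio (x : ℝ) (hgx : g x ≠ 0) (hr : g1 x / g x - f1 x / f x ≠ 0) :
    dY1 κ₁ κ₂ f f1 g g1 x / dY f f1 g g1 x =
      -(f1 x / f x) - (κ₁ ^ 2 - κ₂ ^ 2) / (g1 x / g x - f1 x / f x) := by
  have h1 := dY_eq (f := f) (f1 := f1) (g1 := g1) x hgx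
  have h2 : dY f f1 g g1 x ≠ 0 := by
    rw [h1]
    exact mul_ne_zero hgx hr
  unfold dY1
  rw [sub_div, mul_div_cancel_right₀ _ h2, h1]
  rw [mul_comm (g x) _, ← div_div]
  rw [show -(κ₁ ^ 2 - κ₂ ^ 2) * g x / (g1 x / g x - f1 x / f x) / g x =
    -((κ₁ ^ 2 - κ₂ ^ 2) / (g1 x / g x - f1 x / f x)) by
      rw [div_div, mul_comm (g1 x / g x - f1 x / f x) (g x), ← div_div,
        mul_div_assoc, div_self hgx]
      ring]
  ring

/-- limits of the transformed logarithmic derivative -/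
theorem dY_limit {l : Filter ℝ} {s : ℝ} (h12 : κ₂ < κ₁) (hs : s = 1 ∨ s = -1) (h2 : 0 < κ₂)
    (hf : Tendsto (fun x => f1 x / f x) l (𝓝 (s * κ₁)))
    (hg : Tendsto (fun x => g1 x / g x) l (𝓝 (s * κ₂)))
    (hgne : ∀ᶠ x in l, g x ≠ 0) :
    Tendsto (fun x => dY1 κ₁ κ₂ f f1 g g1 x / dY f f1 g g1 x) l (𝓝 (s * κ₂)) ∧
    ∀ᶠ x in l, dY f f1 g g1 x ≠ 0 := by
  have hd : Tendsto (fun x => g1 x / g x - f1 x / f x) l (𝓝 (s * κ₂ - s * κ₁)) := hg.sub hf
  have hdne : s * κ₂ - s * κ₁ ≠ 0 := by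
    rcases hs with h | h <;> rw [h] <;> intro h0 <;> linarith
  have hev : ∀ᶠ x in l, g1 x / g x - f1 x / f x ≠ 0 := hd.eventually_ne hdne
  constructor
  · have h1 : Tendsto (fun x => -(f1 x / f x) - (κ₁ ^ 2 - κ₂ ^ 2) / (g1 x / g x - f1 x / f x)) l
        (𝓝 (-(s * κ₁) - (κ₁ ^ 2 - κ₂ ^ 2) / (s * κ₂ - s * κ₁))) :=
      hf.neg.sub (tendsto_const_nhds.div hd hdne)
    have h3 : -(s * κ₁) - (κ₁ ^ 2 - κ₂ ^ 2) / (s * κ₂ - s * κ₁) = s * κ₂ := by
      have h4 : κ₂ - κ₁ ≠ 0 := by linarith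
      rcases hs with h | h
      · rw [h] at hdne ⊢
        field_simp
        ring
      · have h5 : κ₁ - κ₂ ≠ 0 := by linarith
        rw [h, show (-1 : ℝ) * κ₂ - -1 * κ₁ = κ₁ - κ₂ by ring]
        field_simp
        ring
    rw [h3] at h1
    refine h1.congr' ?_
    filter_upwards [hev, hgne] with x hx1 hx2
    exact (dY_ratio x hx2 hx1).symm
  · filter_upwards [hev, hgne] with x hx1 hx2
    rw [dY_eq x hx2]
    exact mul_ne_zero hx2 hx1

end

end P371H29
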