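import Mathlib
import Vale.Agent.Lib.P371H29.Darboux

open MeasureTheory Set Filter
open scoped Topology

namespace P371H29

/-- a nontrivial solution that decays -/
structure Eig (V : ℝ → ℝ) (κ : ℝ) (y y1 : ℝ → ℝ) : Prop where
  sol : Sol V κ y y1
  small : Small y y1
  ne : ∃ x, y x ≠ 0

section

variable {V : ℝ → ℝ} {κ κ₁ κ₂ : ℝ} {f f1 g g1 : ℝ → ℝ}

theorem Eig.refl (h : Eig V κ f f1) : Eig (fun x => V (-x)) κ (fun x => f (-x)) (fun x => - f1 (-x)) where
  sol := h.sol.refl
  small := h.small.refl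
  ne := by
    obtain ⟨x, hx⟩ := h.ne
    exact ⟨-x, by simpa using hx⟩

theorem Eig.bot (h : Eig V κ f f1) (hV : Pot V) (hκ : 0 < κ) :
    Tendsto (fun x => f1 x / f x) atBot (𝓝 κ) := ratio_bot h.sol hV hκ h.small.bot h.ne

theorem Eig.top (h : Eig V κ f f1) (hV : Pot V) (hκ : 0 < κ) :
    Tendsto (fun x => f1 x / f x) atTop (𝓝 (-κ)) := ratio_top h.sol hV hκ h.small h.ne

theorem Eig.neBot (h : Eig V κ f f1) (hV : Pot V) (hκ : 0 < κ) : ∃ X, ∀ x ≤ X, f x ≠ 0 :=
  eventually_ne h.sol hV hκ h.small.bot h.ne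

theorem Eig.neTop (h : Eig V κ f f1) (hV : Pot V) (hκ : 0 < κ) : ∃ X, ∀ x ≥ X, f x ≠ 0 := by
  obtain ⟨X, hX⟩ := h.refl.neBot hV.refl hκ
  refine ⟨-X, fun x hx => ?_⟩
  have := hX (-x) (by linarith)
  simpa using this

theorem sign_const (hf : Continuous f) (hne : ∀ x, f x ≠ 0) : (∀ x, 0 < f x) ∨ (∀ x, f x < 0) := by
  rcases lt_or_gt_of_ne (hne 0) with h | h
  · right
    intro x
    by_contra hc
    push Not at hc
    obtain ⟨t, _, ht⟩ := (isPreconnected_univ (α := ℝ)).intermediate_value (mem_univ 0) (mem_univ x)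
      hf.continuousOn ⟨h.le, hc⟩
    exact hne t ht
  · left
    intro x
    by_contra hc
    push Not at hc
    obtain ⟨t, _, ht⟩ := (isPreconnected_univ (α := ℝ)).intermediate_value (mem_univ x) (mem_univ 0)
      hf.continuousOn ⟨hc, h.le⟩
    exact hne t ht

theorem ratio_le (h : Sol V κ f f1) (hV : ∀ x, 0 ≤ V x) (hκ : 0 < κ)
    (hsm : ∀ ε > 0, ∃ᶠ x in atBot, |f x| < ε ∧ |f1 x| < ε) (hne : ∀ x, f x ≠ 0) (x : ℝ) :
    f1 x / f x ≤ κ := by
  rcases sign_const h.cont hne with hp | hn
  · have := upper h hV hκ hsm (x := x) (fun t _ => (hp t).le)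
    rw [div_le_iff₀ (hp x)]
    exact this
  · have := upper h.neg hV hκ (by intro ε hε; simpa using hsm ε hε) (x := x)
      (fun t _ => by linarith [hn t])
    have h1 : 0 < - f x := by linarith [hn x]
    rw [← neg_div_neg_eq, div_le_iff₀ h1]
    exact this

theorem ratio_sq_le (h : Eig V κ f f1) (hV : Pot V) (hκ : 0 < κ) (hne : ∀ x, f x ≠ 0) (x : ℝ) :
    (f1 x / f x) ^ 2 ≤ κ ^ 2 := by
  have h1 := ratio_le h.sol hV.nonneg hκ h.small.bot hne x
  have h2 := ratio_le h.refl.sol hV.refl.nonneg hκ h.refl.small.bot (fun t => hne (-t)) (-x)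
  simp only [neg_neg] at h2
  rw [neg_div] at h2
  apply sq_le_sq'
  · linarith
  · exact h1

theorem max_rpow_meas {W : ℝ → ℝ} {p a b : ℝ} (h : IntervalIntegrable W volume a b) :
    AEStronglyMeasurable (fun x => (max (W x) 0) ^ p) (volume.restrict (uIoc a b)) :=
  ((h.aestronglyMeasurable_restrict_uIoc.aemeasurable.max aemeasurable_const).pow_const
    p).aestronglyMeasurable

theorem dPot_p_int {p : ℝ} (hp : 1 < p) (h : Sol V κ f f1) (hV : ∀ x, 0 ≤ V x)
    (hne : ∀ x, f x ≠ 0) (a b : ℝ) :
    IntervalIntegrable (fun x => (max (dPot V κ f f1 x) 0) ^ p) volume a b := by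
  have h1 := dPot_int h hne a b
  apply (intervalIntegrable_const (c := (2 * κ ^ 2) ^ p)).mono_fun' (max_rpow_meas h1)
  filter_upwards with x
  rw [Real.norm_of_nonneg (Real.rpow_nonneg (le_max_right _ _) _)]
  apply Real.rpow_le_rpow (le_max_right _ _) _ (by linarith)
  apply max_le
  · unfold dPot
    nlinarith [hV x, sq_nonneg (f1 x / f x)]
  · positivity

theorem two_core {p θ : ℝ} (hp : 1 < p) (hθ0 : 0 ≤ θ) (hV : Pot V)
    {I : ℝ} (hI : ∀ a b, a ≤ b → ∫ x in a..b, (V x) ^ p ≤ I)
    (h2 : 0 < κ₂) (h12 : κ₂ < κ₁) (hf : Eig V κ₁ f f1) (hg : Eig V κ₂ g g1)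
    (hne : ∀ x, f x ≠ 0)
    (hcomm : ∀ a b, a ≤ b → Cp p * (Phi p κ₁ (f1 a / f a) - Phi p κ₁ (f1 b / f b)) +
      θ * ∫ x in a..b, (max (dPot V κ₁ f f1 x) 0) ^ p ≤ ∫ x in a..b, (V x) ^ p) :
    Cp p * (2 * Phi p κ₁ κ₁) + θ * (Cp p * (2 * Phi p κ₂ κ₂)) ≤ I := by
  have h1 : 0 < κ₁ := by linarith
  have hC := Cp_pos hp
  have hWi := dPot_p_int hp hf.sol hV.nonneg hne
  have hg0 : ∀ x, 0 ≤ (max (dPot V κ₁ f f1 x) 0) ^ p :=
    fun x => Real.rpow_nonneg (le_max_right _ _) _
  have hlim1 : Tendsto (fun x => Phi p κ₁ (f1 x / f x)) atBot (𝓝 (Phi p κ₁ κ₁)) :=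
    ((Phi_cont hp κ₁).tendsto κ₁).comp (hf.bot hV h1)
  have hlim2 : Tendsto (fun x => Phi p κ₁ (f1 x / f x)) atTop (𝓝 (Phi p κ₁ (-κ₁))) :=
    ((Phi_cont hp κ₁).tendsto (-κ₁)).comp (hf.top hV h1)
  have hlim : Tendsto (fun x => I - Cp p * (Phi p κ₁ (f1 (-x) / f (-x)) - Phi p κ₁ (f1 x / f x)))
      atTop (𝓝 (I - Cp p * (Phi p κ₁ κ₁ - Phi p κ₁ (-κ₁)))) :=
    tendsto_const_nhds.sub (((hlim1.comp tendsto_neg_atTop_atBot).sub hlim2).const_mul _)
  have hbound : ∀ a b, a ≤ b → θ * ∫ x in a..b, (max (dPot V κ₁ f f1 x) 0) ^ p ≤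
      I - Cp p * (2 * Phi p κ₁ κ₁) := by
    intro a b hab
    have h3 : θ * ∫ x in a..b, (max (dPot V κ₁ f f1 x) 0) ^ p ≤
        I - Cp p * (Phi p κ₁ κ₁ - Phi p κ₁ (-κ₁)) := by
      apply ge_of_tendsto hlim
      filter_upwards [eventually_ge_atTop (max |a| |b|)] with x hx
      have hxa : -x ≤ a := by
        have := le_trans (le_max_left _ _) hx
        have := neg_abs_le a
        linarith
      have hxb : b ≤ x := by
        have := le_trans (le_max_right _ _) hx
        have := le_abs_self b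
        linarith
      have e1 := hcomm (-x) x (by linarith)
      have e2 := hI (-x) x (by linarith)
      have e3 : ∫ t in a..b, (max (dPot V κ₁ f f1 t) 0) ^ p ≤
          ∫ t in (-x)..x, (max (dPot V κ₁ f f1 t) 0) ^ p := by
        rw [← intervalIntegral.integral_add_adjacent_intervals (hWi (-x) a) (hWi a x),
          ← intervalIntegral.integral_add_adjacent_intervals (hWi a b) (hWi b x)]
        have k1 : 0 ≤ ∫ t in (-x)..a, (max (dPot V κ₁ f f1 t) 0) ^ p :=
          intervalIntegral.integral_nonneg hxa (fun t _ => hg0 t)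
        have k2 : 0 ≤ ∫ t in b..x, (max (dPot V κ₁ f f1 t) 0) ^ p :=
          intervalIntegral.integral_nonneg hxb (fun t _ => hg0 t)
        linarith
      have e4 := mul_le_mul_of_nonneg_left e3 hθ0
      linarith
    rw [Phi_neg] at h3
    linarith
  rcases hθ0.eq_or_lt with h0 | hpos
  · rw [← h0] at hbound ⊢
    have := hbound 0 0 le_rfl
    linarith
  · obtain ⟨lb, eb⟩ := dY_limit (f := f) (f1 := f1) (g := g) (g1 := g1) (l := atBot) (s := 1) h12
      (Or.inl rfl) h2 (by simpa using hf.bot hV h1) (by simpa using hg.bot hV h2)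
      (by
        obtain ⟨X, hX⟩ := hg.neBot hV h2
        exact eventually_atBot.mpr ⟨X, hX⟩)
    obtain ⟨lt, et⟩ := dY_limit (f := f) (f1 := f1) (g := g) (g1 := g1) (l := atTop) (s := -1) h12
      (Or.inr rfl) h2 (by simpa using hf.top hV h1) (by simpa using hg.top hV h2)
      (by
        obtain ⟨X, hX⟩ := hg.neTop hV h2
        exact eventually_atTop.mpr ⟨X, hX⟩)
    have hk := keller_any hp (darboux hf.sol hne hg.sol) h2.le (by simpa using lb)
      (by simpa using lt) (eventually_atBot.mp eb) hWi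
      (I := (I - Cp p * (2 * Phi p κ₁ κ₁)) / θ)
      (by
        intro a b hab
        rw [le_div_iff₀ hpos]
        have := hbound a b hab
        linarith)
    rw [le_div_iff₀ hpos] at hk
    linarith

theorem max_eq_self_rpow (hV : Pot V) (p : ℝ) :
    (fun x => (max (V x) 0) ^ p) = fun x => (V x) ^ p := by
  ext x
  rw [max_eq_left (hV.nonneg x)]

/-- the inequality for two eigenvalues of an arbitrary admitted potential -/
theorem two_gen {p θ : ℝ} (hp : 1 < p) (hp2 : p ≤ 2) (hθ : GoodTheta p θ) (hV : Pot V)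
    (hVp : ∀ a b, IntervalIntegrable (fun x => (V x) ^ p) volume a b)
    {I : ℝ} (hI : ∀ a b, a ≤ b → ∫ x in a..b, (V x) ^ p ≤ I)
    (h2 : 0 < κ₂) (h12 : κ₂ < κ₁) (hf : Eig V κ₁ f f1) (hg : Eig V κ₂ g g1) :
    Cp p * (2 * Phi p κ₁ κ₁) + θ * (Cp p * (2 * Phi p κ₂ κ₂)) ≤ I := by
  have h1 : 0 < κ₁ := by linarith
  have hC := Cp_pos hp
  by_cases hz : ∃ z, f z = 0
  · obtain ⟨z, hz⟩ := hz
    have h3 := keller_two hp hf.sol h1.le (hf.bot hV h1) (hf.top hV h1) (hf.neBot hV h1)
      (hf.neTop hV h1) hz (by rw [max_eq_self_rpow hV]; exact hVp)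
      (I := I) (by rw [max_eq_self_rpow hV]; exact hI)
    have h4 := Phi_strict hp h2 h12.le
    have h5 : 0 ≤ Phi p κ₂ κ₂ := Phi_nonneg h2.le
    have h6 : θ * (Cp p * (2 * Phi p κ₂ κ₂)) ≤ 1 * (Cp p * (2 * Phi p κ₁ κ₁)) := by
      apply mul_le_mul hθ.2.1 _ (by positivity) zero_le_one
      apply mul_le_mul_of_nonneg_left _ hC.le
      linarith
    linarith
  · push Not at hz
    apply two_core hp hθ.1 hV hI h2 h12 hf hg hz
    intro a b hab
    exact comm_local hp hp2 hθ hf.sol hV.nonneg hab (fun x _ => hz x)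
      (fun x _ => ratio_sq_le hf hV h1 hz x) (hVp a b) (dPot_p_int hp hf.sol hV.nonneg hz a b)

/-- the sharp inequality when the logarithmic derivative of the lowest eigenfunction decreases -/
theorem two_anti {p : ℝ} (hp : 1 < p) (hp2 : p ≤ 2) (hV : Pot V)
    (hVp : ∀ a b, IntervalIntegrable (fun x => (V x) ^ p) volume a b)
    {I : ℝ} (hI : ∀ a b, a ≤ b → ∫ x in a..b, (V x) ^ p ≤ I)
    (h2 : 0 < κ₂) (h12 : κ₂ < κ₁) (hf : Eig V κ₁ f f1) (hg : Eig V κ₂ g g1)
    (hanti : (∀ x, f x ≠ 0) → Antitone (fun x => f1 x / f x)) :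
    Cp p * (2 * Phi p κ₁ κ₁) + 1 * (Cp p * (2 * Phi p κ₂ κ₂)) ≤ I := by
  have h1 : 0 < κ₁ := by linarith
  have hC := Cp_pos hp
  by_cases hz : ∃ z, f z = 0
  · obtain ⟨z, hz⟩ := hz
    have h3 := keller_two hp hf.sol h1.le (hf.bot hV h1) (hf.top hV h1) (hf.neBot hV h1)
      (hf.neTop hV h1) hz (by rw [max_eq_self_rpow hV]; exact hVp)
      (I := I) (by rw [max_eq_self_rpow hV]; exact hI)
    have h4 := Phi_strict hp h2 h12.le
    have h5 : 0 ≤ Phi p κ₂ κ₂ := Phi_nonneg h2.le
    have h6 : (Cp p * (2 * Phi p κ₂ κ₂)) ≤ (Cp p * (2 * Phi p κ₁ κ₁)) := by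
      apply mul_le_mul_of_nonneg_left _ hC.le
      linarith
    linarith
  · push Not at hz
    apply two_core hp zero_le_one hV hI h2 h12 hf hg hz
    intro a b hab
    exact comm_local_anti hp hp2 hf.sol hab (fun x _ => hz x)
      (fun x _ => ratio_sq_le hf hV h1 hz x) (hanti hz) (hVp a b)
      (dPot_p_int hp hf.sol hV.nonneg hz a b)

/-- one eigenvalue -/
theorem one_gen {p : ℝ} (hp : 1 < p) (hV : Pot V)
    (hVp : ∀ a b, IntervalIntegrable (fun x => (V x) ^ p) volume a b)
    {I : ℝ} (hI : ∀ a b, a ≤ b → ∫ x in a..b, (V x) ^ p ≤ I)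
    (h1 : 0 < κ) (hf : Eig V κ f f1) : Cp p * (2 * Phi p κ κ) ≤ I :=
  keller_any hp hf.sol h1.le (hf.bot hV h1) (hf.top hV h1) (hf.neBot hV h1)
    (by rw [max_eq_self_rpow hV]; exact hVp) (by rw [max_eq_self_rpow hV]; exact hI)

theorem Eig.tendsto_bot (hf : Eig V κ f f1) (hV : Pot V) (hκ : 0 < κ) :
    Tendsto f atBot (𝓝 0) ∧ Tendsto f1 atBot (𝓝 0) := by
  obtain ⟨X, hX⟩ := hf.neBot hV hκ
  have hr := hf.bot hV hκ
  obtain ⟨Y, hY⟩ := eventually_atBot.mp (hr.eventually (lt_mem_nhds hκ))
  set Z := min X Y with hZ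
  have hmono : MonotoneOn (fun t => f t * f t) (Iic Z) := by
    have hd : ∀ t, HasDerivAt (fun t => f t * f t) (f1 t * f t + f t * f1 t) t := fun t =>
      (hf.sol.hd t).mul (hf.sol.hd t)
    apply monotoneOn_of_deriv_nonneg (convex_Iic _)
    · exact fun t _ => (hd t).continuousAt.continuousWithinAt
    · exact fun t _ => (hd t).differentiableAt.differentiableWithinAt
    · intro t ht
      rw [interior_Iic] at ht
      rw [(hd t).deriv]
      have h1 : t ≤ X := le_trans (le_of_lt ht) (min_le_left _ _)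
      have h2 : t ≤ Y := le_trans (le_of_lt ht) (min_le_right _ _)
      have h3 := hX t h1
      have h4 := hY t h2
      have h5 : f1 t * f t + f t * f1 t = 2 * (f t * f t) * (f1 t / f t) := by
        field_simp
        ring
      rw [h5]
      have := mul_self_nonneg (f t)
      positivity
  have hf0 : Tendsto f atBot (𝓝 0) := by
    rw [Metric.tendsto_nhds]
    intro ε hε
    obtain ⟨t, ⟨ht1, _⟩, ht2⟩ := ((hf.small.bot ε hε).and_eventually (eventually_le_atBot Z)).exists
    filter_upwards [eventually_le_atBot t] with x hx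
    rw [Real.dist_eq, sub_zero]
    have h1 := hmono (mem_Iic.mpr (le_trans hx ht2)) (mem_Iic.mpr ht2) hx
    simp only at h1
    have h2 : |f x| * |f x| ≤ |f t| * |f t| := by
      rw [abs_mul_abs_self, abs_mul_abs_self]
      exact h1
    have h3 := abs_nonneg (f x)
    have h4 := abs_nonneg (f t)
    by_contra hcon
    push Not at hcon
    nlinarith
  refine ⟨hf0, ?_⟩
  have h1 := hr.mul hf0
  rw [mul_zero] at h1
  refine h1.congr' ?_
  filter_upwards [eventually_le_atBot X] with x hx
  exact div_mul_cancel₀ _ (hX x hx)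

theorem Eig.tendsto_top (hf : Eig V κ f f1) (hV : Pot V) (hκ : 0 < κ) :
    Tendsto f atTop (𝓝 0) ∧ Tendsto f1 atTop (𝓝 0) := by
  obtain ⟨h1, h2⟩ := hf.refl.tendsto_bot hV.refl hκ
  constructor
  · refine (h1.comp tendsto_neg_atTop_atBot).congr (fun x => ?_)
    simp
  · have := (h2.comp tendsto_neg_atTop_atBot).neg
    rw [neg_zero] at this
    refine this.congr (fun x => ?_)
    simp

/-- the logarithmic derivative decreases for unimodal potentials -/
theorem unimodal_anti (hV : Pot V) (hκ : 0 < κ) (hf : Eig V κ f f1) {c : ℝ}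
    (hl : MonotoneOn V (Iic c)) (hr : AntitoneOn V (Ici c)) (hne : ∀ x, f x ≠ 0) :
    Antitone (fun x => f1 x / f x) := by
  -- the shifted Wronskian
  intro x x' hxx'
  set h := x' - x with hh
  have hh0 : 0 ≤ h := by linarith
  set ω : ℝ → ℝ := fun t => f t * f1 (t + h) - f1 t * f (t + h) with hω
  have hff : ∀ t, 0 < f t * f (t + h) := by
    intro t
    rcases sign_const hf.sol.cont hne with hp | hn
    · exact mul_pos (hp _) (hp _)
    · exact mul_pos_of_neg_of_neg (hn _) (hn _)
  have hgoal : ω x ≤ 0 := by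
    have hshift : ∀ t, HasDerivAt (fun t => f (t + h)) (f1 (t + h)) t := by
      intro t
      have := (hf.sol.hd (t + h)).comp t ((hasDerivAt_id t).add_const h)
      simpa [Function.comp_def] using this
    have hac1 : ∀ a b, AbsolutelyContinuousOnInterval (fun t => f1 (t + h)) a b := by
      intro a b
      have e : (fun t => f1 (t + h)) = fun t => f1 (a + h) +
          ∫ s in a..t, (κ ^ 2 - V (s + h)) * f (s + h) := by
        ext t
        have e1 := hf.sol.hi (a + h) (t + h)
        have e2 := intervalIntegral.integral_comp_add_right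
          (f := fun s => (κ ^ 2 - V s) * f s) (a := a) (b := t) h
        rw [e2, ← e1]
        ring
      have hint : IntervalIntegrable (fun s => (κ ^ 2 - V (s + h)) * f (s + h)) volume a b := by
        have := (hf.sol.intF (a + h) (b + h)).comp_add_right h
        simpa using this
      have h2 := hint.absolutelyContinuousOnInterval_intervalIntegral (c := a) left_mem_uIcc
      have h3 : AbsolutelyContinuousOnInterval (fun _ : ℝ => f1 (a + h)) a b :=
        ac_of_c1 (f' := fun _ => 0) (fun x _ => hasDerivAt_const x _) continuousOn_const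
      rw [e]
      simpa using h3.fun_add h2
    have hae1 : ∀ᵐ t, HasDerivAt (fun t => f1 (t + h)) ((κ ^ 2 - V (t + h)) * f (t + h)) t := by
      have hq := (measurePreserving_add_right volume h).quasiMeasurePreserving.ae hf.sol.ae_deriv
      filter_upwards [hq] with t ht
      have := ht.comp t ((hasDerivAt_id t).add_const h)
      simpa [Function.comp_def] using this
    have hωac : ∀ a b, AbsolutelyContinuousOnInterval ω a b := by
      intro a b
      apply AbsolutelyContinuousOnInterval.fun_sub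
      · exact (hf.sol.ac_y a b).fun_mul (hac1 a b)
      · apply (hf.sol.ac_y1 a b).fun_mul
        apply ac_of_c1 (fun t _ => hshift t)
        have := hf.sol.cont1
        fun_prop
    have hωae : ∀ᵐ t, HasDerivAt ω ((V t - V (t + h)) * (f t * f (t + h))) t := by
      filter_upwards [hf.sol.ae_deriv, hae1] with t h1 h2
      refine (((hf.sol.hd t).mul h2).sub (h1.mul (hshift t))).congr_deriv ?_
      ring
    have hdec : ∀ s t, s ≤ t → (∀ z ∈ Icc s t, V z ≤ V (z + h)) → ω t ≤ ω s := by
      intro s t hst hz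
      apply ac_anti hst (hωac s t) (g := fun t => (V t - V (t + h)) * (f t * f (t + h)))
        (hωae.mono fun z hz _ => hz)
      intro z hz'
      apply mul_nonpos_of_nonpos_of_nonneg _ (hff z).le
      have := hz z hz'
      linarith
    have hinc : ∀ s t, s ≤ t → (∀ z ∈ Icc s t, V (z + h) ≤ V z) → ω s ≤ ω t := by
      intro s t hst hz
      apply ac_mono hst (hωac s t) (g := fun t => (V t - V (t + h)) * (f t * f (t + h)))
        (hωae.mono fun z hz _ => hz)
      intro z hz'
      apply mul_nonneg _ (hff z).le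
      have := hz z hz'
      linarith
    have hlb : Tendsto ω atBot (𝓝 0) := by
      obtain ⟨h1, h2⟩ := hf.tendsto_bot hV hκ
      have hs : Tendsto (fun t : ℝ => t + h) atBot atBot := tendsto_atBot_add_const_right _ _ tendsto_id
      have := (h1.mul (h2.comp hs)).sub (h2.mul (h1.comp hs))
      simpa using this
    have hlt : Tendsto ω atTop (𝓝 0) := by
      obtain ⟨h1, h2⟩ := hf.tendsto_top hV hκ
      have hs : Tendsto (fun t : ℝ => t + h) atTop atTop := tendsto_atTop_add_const_right _ _ tendsto_id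
      have := (h1.mul (h2.comp hs)).sub (h2.mul (h1.comp hs))
      simpa using this
    have hbot : ∀ t, (∀ s ≤ t, V s ≤ V (s + h)) → ω t ≤ 0 := by
      intro t ht
      apply ge_of_tendsto hlb
      filter_upwards [eventually_le_atBot t] with s hs
      exact hdec s t hs (fun z hz => ht z hz.2)
    have htop : ∀ t, (∀ s ≥ t, V (s + h) ≤ V s) → ω t ≤ 0 := by
      intro t ht
      apply ge_of_tendsto hlt
      filter_upwards [eventually_ge_atTop t] with s hs
      exact hinc t s hs (fun z hz => ht z hz.1)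
    rcases le_or_gt (x + h) c with h1 | h1
    · apply hbot
      intro s hs
      exact hl (by simp only [mem_Iic]; linarith) (by simp only [mem_Iic]; linarith) (by linarith)
    · rcases le_or_gt c x with h2 | h2
      · apply htop
        intro s hs
        exact hr (by simp only [mem_Ici]; linarith) (by simp only [mem_Ici]; linarith) (by linarith)
      · rcases le_or_gt (V x) (V (x + h)) with h3 | h3
        · have e1 := hdec (c - h) x (by linarith) (by
            intro z hz
            have a1 : V z ≤ V x := hl (by simp only [mem_Iic]; linarith [hz.2])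
              (by simp only [mem_Iic]; linarith) hz.2
            have a2 : V (x + h) ≤ V (z + h) := hr (by simp only [mem_Ici]; linarith [hz.1])
              (by simp only [mem_Ici]; linarith) (by linarith [hz.2])
            linarith)
          have e2 := hbot (c - h) (by
            intro s hs
            exact hl (by simp only [mem_Iic]; linarith) (by simp only [mem_Iic]; linarith)
              (by linarith))
          linarith
        · have e1 := hinc x c h2.le (by
            intro z hz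
            have a1 : V x ≤ V z := hl (by simp only [mem_Iic]; linarith)
              (by simp only [mem_Iic]; linarith [hz.2]) hz.1
            have a2 : V (z + h) ≤ V (x + h) := hr (by simp only [mem_Ici]; linarith)
              (by simp only [mem_Ici]; linarith [hz.1]) (by linarith [hz.1])
            linarith)
          have e2 := htop c (by
            intro s hs
            exact hr (by simp only [mem_Ici]; linarith) (by simp only [mem_Ici]; linarith)
              (by linarith))
          linarith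
  have hx' : x + h = x' := by rw [hh]; ring
  simp only [hω, hx'] at hgoal
  have h1 := hff x
  rw [hx'] at h1
  have h2 : f1 x' / f x' - f1 x / f x = (f x * f1 x' - f1 x * f x') / (f x * f x') := by
    have := hne x
    have := hne x'
    field_simp
  have h3 : (f x * f1 x' - f1 x * f x') / (f x * f x') ≤ 0 :=
    div_nonpos_of_nonpos_of_nonneg hgoal h1.le
  simp only
  linarith

end

end P371H29
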