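import Mathlib
import Vale.Agent.Lib.P371H29.Two

open MeasureTheory Set Filter
open scoped Topology ContDiff

namespace P371H29

theorem dubois {u : ℝ → ℝ} (hu : LocallyIntegrable u volume)
    (h : ∀ φ : ℝ → ℝ, ContDiff ℝ ∞ φ → HasCompactSupport φ → ∫ x, deriv φ x * u x = 0) :
    ∃ c, ∀ᵐ x, u x = c := by
  let ρ : ContDiffBump (0:ℝ) := ⟨1, 2, by norm_num, by norm_num⟩
  have hρc : ContDiff ℝ ∞ (ρ : ℝ → ℝ) := ρ.contDiff
  have hρs : HasCompactSupport (ρ : ℝ → ℝ) := ρ.hasCompactSupport
  set m : ℝ := ∫ x, ρ x with hm
  have hmpos : 0 < m := ρ.integral_pos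
  set c : ℝ := (∫ x, ρ x * u x) / m with hc
  refine ⟨c, ?_⟩
  have hloc : LocallyIntegrable (fun x => u x - c) volume :=
    hu.sub (locallyIntegrable_const c)
  have := ae_eq_zero_of_integral_contDiff_smul_eq_zero hloc (by
    intro φ hφc hφs
    set s : ℝ := (∫ x, φ x) / m with hs
    set η : ℝ → ℝ := fun x => φ x - s * ρ x with hη
    have hηc : ContDiff ℝ ∞ η := hφc.sub (contDiff_const.mul hρc)
    have hηs : HasCompactSupport η := hφs.sub (hρs.mul_left)
    have hφi : Integrable φ volume := hφc.continuous.integrable_of_hasCompactSupport hφs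
    have hρi : Integrable (ρ : ℝ → ℝ) volume := hρc.continuous.integrable_of_hasCompactSupport hρs
    have hη0 : ∫ x, η x = 0 := by
      simp only [hη]
      rw [integral_sub hφi (hρi.const_mul s), integral_const_mul, ← hm, hs]
      field_simp
      ring
    obtain ⟨R, hR⟩ := hηs.isCompact.isBounded.subset_closedBall 0
    have hR0 : ∀ x, R < |x| → η x = 0 := by
      intro x hx
      by_contra hne
      have h1 : x ∈ tsupport η := subset_tsupport η hne
      have h2 := hR h1
      rw [mem_closedBall_zero_iff, Real.norm_eq_abs] at h2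
      linarith
    set P : ℝ → ℝ := fun x => ∫ t in (-(|R| + 1))..x, η t with hP
    have hPd : ∀ x, HasDerivAt P (η x) x := fun x =>
      intervalIntegral.integral_hasDerivAt_right (hηc.continuous.intervalIntegrable _ _)
        (hηc.continuous.stronglyMeasurableAtFilter _ _) hηc.continuous.continuousAt
    have hPderiv : deriv P = η := by
      ext x
      exact (hPd x).deriv
    have hPc : ContDiff ℝ ∞ P := by
      rw [contDiff_infty_iff_deriv, hPderiv]
      exact ⟨fun x => (hPd x).differentiableAt, hηc⟩
    have hRle := le_abs_self R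
    have hPs : HasCompactSupport P := by
      apply HasCompactSupport.of_support_subset_isCompact (isCompact_Icc (a := -(|R| + 1)) (b := |R| + 1))
      intro x hx
      by_contra hxn
      apply hx
      rw [mem_Icc, not_and_or] at hxn
      push Not at hxn
      rcases hxn with h1 | h1
      · -- left of the support
        simp only [hP]
        apply intervalIntegral.integral_zero_ae
        filter_upwards with t ht
        rw [uIoc_of_ge h1.le] at ht
        apply hR0
        have h2 : t ≤ -(|R| + 1) := ht.2
        have h3 := neg_le_abs t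
        linarith
      · have hfull : ∫ t in (-(|R| + 1))..x, η t = ∫ t, η t := by
          apply intervalIntegral.integral_eq_integral_of_support_subset
          intro t ht
          have : |t| ≤ R := by
            by_contra hc'
            push Not at hc'
            exact ht (hR0 t hc')
          have h2 := abs_le.mp this
          constructor
          · linarith [h2.1]
          · linarith [h2.2]
        simp only [hP]
        rw [hfull, hη0]
    have h1 := h P hPc hPs
    rw [hPderiv] at h1
    have i1 : Integrable (fun x => φ x * u x) volume := by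
      simpa using hu.integrable_smul_left_of_hasCompactSupport hφc.continuous hφs
    have i2 : Integrable (fun x => ρ x * u x) volume := by
      simpa using hu.integrable_smul_left_of_hasCompactSupport hρc.continuous hρs
    have h2 : ∫ x, η x * u x = (∫ x, φ x * u x) - s * ∫ x, ρ x * u x := by
      rw [← integral_const_mul, ← integral_sub i1 (i2.const_mul s)]
      congr 1
      ext x
      simp only [hη]
      ring
    rw [h2] at h1
    simp only [smul_eq_mul]
    have h3 : ∫ x, φ x * (u x - c) = (∫ x, φ x * u x) - c * ∫ x, φ x := by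
      rw [← integral_const_mul, ← integral_sub i1 (hφi.const_mul c)]
      congr 1
      ext x
      ring
    rw [h3, hc]
    rw [hs] at h1
    field_simp
    field_simp at h1
    linarith)
  filter_upwards [this] with x hx
  linarith

/-- the real weak equation -/
structure WeakReal (W : ℝ → ℝ) (lam : ℝ) (y dy : ℝ → ℝ) : Prop where
  l2 : MemLp y 2 volume
  l2' : MemLp dy 2 volume
  ftc : ∀ a b, y b - y a = ∫ t in a..b, dy t
  eq : ∀ φ : ℝ → ℝ, ContDiff ℝ ∞ φ → HasCompactSupport φ →
    (∫ t, deriv φ t * dy t) - (∫ t, W t * φ t * y t) = lam * ∫ t, φ t * y t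

theorem intInt_of_loc {f : ℝ → ℝ} (hf : LocallyIntegrable f volume) (a b : ℝ) :
    IntervalIntegrable f volume a b :=
  intervalIntegrable_iff.mpr
    ((hf.integrableOn_isCompact isCompact_uIcc).mono_set uIoc_subset_uIcc)

theorem cont_of_ftc {y dy : ℝ → ℝ} (hd : ∀ a b, IntervalIntegrable dy volume a b)
    (h : ∀ a b, y b - y a = ∫ t in a..b, dy t) : Continuous y := by
  rw [continuous_iff_continuousAt]
  intro x
  have h1 := ((hd (x-1) (x + 1)).absolutelyContinuousOnInterval_intervalIntegral
    (c := x - 1) left_mem_uIcc).continuousOn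
  rw [uIcc_of_le (by linarith)] at h1
  have h2 := h1.continuousAt (Icc_mem_nhds (by linarith) (by linarith) : Icc (x-1) (x+1) ∈ 𝓝 x)
  have h3 : y = fun z => y (x - 1) + ∫ t in (x-1)..z, dy t := by
    ext z
    have := h (x-1) z
    linarith
  rw [h3]
  exact continuousAt_const.add h2

theorem sol_of_weak {W : ℝ → ℝ} {κ : ℝ} {y dy : ℝ → ℝ}
    (hW : ∀ a b, IntervalIntegrable W volume a b) (h : WeakReal W (-κ ^ 2) y dy) :
    ∃ y1, Sol W κ y y1 ∧ dy =ᵐ[volume] y1 := by
  have hdl : LocallyIntegrable dy volume := h.l2'.locallyIntegrable (by norm_num)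
  have hdi : ∀ a b, IntervalIntegrable dy volume a b := intInt_of_loc hdl
  have hyc : Continuous y := cont_of_ftc hdi h.ftc
  have hFi : ∀ a b, IntervalIntegrable (fun t => (κ ^ 2 - W t) * y t) volume a b := fun a b =>
    ((intervalIntegrable_const).sub (hW a b)).mul_continuousOn hyc.continuousOn
  have hFl : LocallyIntegrable (fun t => (κ ^ 2 - W t) * y t) volume := locInt_of_intInt hFi
  set H : ℝ → ℝ := fun x => ∫ t in (0:ℝ)..x, (κ ^ 2 - W t) * y t with hH
  have hHsub : ∀ a b, H b - H a = ∫ t in a..b, (κ ^ 2 - W t) * y t := fun a b =>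
    intervalIntegral.integral_interval_sub_left (hFi _ _) (hFi _ _)
  have hHc : Continuous H := cont_of_ftc hFi hHsub
  have hHae : ∀ᵐ x, HasDerivAt H ((κ ^ 2 - W x) * y x) x := by
    filter_upwards [_root_.LocallyIntegrable.ae_hasDerivAt_integral hFl] with x hx
    exact hx 0
  have hHac : ∀ a b, AbsolutelyContinuousOnInterval H a b := by
    intro a b
    have h2 := (hFi a b).absolutelyContinuousOnInterval_intervalIntegral (c := a) left_mem_uIcc
    have h3 : AbsolutelyContinuousOnInterval (fun _ : ℝ => H a) a b :=
      ac_of_c1 (f' := fun _ => 0) (fun x _ => hasDerivAt_const x _) continuousOn_const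
    have e : H = fun x => H a + ∫ t in a..x, (κ ^ 2 - W t) * y t := by
      ext x
      have := hHsub a x
      linarith
    rw [e]
    simpa using h3.fun_add h2
  obtain ⟨c, hc⟩ := dubois (u := fun x => dy x - H x) (hdl.sub hHc.locallyIntegrable) (by
    intro φ hφc hφs
    have hφ'c : Continuous (deriv φ) := hφc.continuous_deriv (by simp)
    have hφ's : HasCompactSupport (deriv φ) := hφs.deriv
    have hφd : ∀ x, HasDerivAt φ (deriv φ x) x := fun x =>
      (hφc.differentiable (by simp) x).hasDerivAt
    have i1 : Integrable (fun x => deriv φ x * dy x) volume := by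
      simpa using hdl.integrable_smul_left_of_hasCompactSupport hφ'c hφ's
    have i2 : Integrable (fun x => deriv φ x * H x) volume := by
      simpa using hHc.locallyIntegrable.integrable_smul_left_of_hasCompactSupport hφ'c hφ's
    have i3 : Integrable (fun x => φ x * ((κ ^ 2 - W x) * y x)) volume := by
      simpa using hFl.integrable_smul_left_of_hasCompactSupport hφc.continuous hφs
    have i4 : Integrable (fun x => φ x * y x) volume := by
      simpa using hyc.locallyIntegrable.integrable_smul_left_of_hasCompactSupport hφc.continuous hφs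
    have hWyl : LocallyIntegrable (fun x => W x * y x) volume :=
      locInt_of_intInt (fun a b => (hW a b).mul_continuousOn hyc.continuousOn)
    have i5 : Integrable (fun x => W x * φ x * y x) volume := by
      have := hWyl.integrable_smul_left_of_hasCompactSupport hφc.continuous hφs
      refine this.congr (Eventually.of_forall fun x => ?_)
      simp only [smul_eq_mul]
      ring
    -- integration by parts
    obtain ⟨R, hR⟩ := hφs.isCompact.isBounded.subset_closedBall 0
    have hR0 : ∀ x, R < |x| → φ x = 0 := by
      intro x hx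
      by_contra hne
      have h1 : x ∈ tsupport φ := subset_tsupport φ hne
      have h2 := hR h1
      rw [mem_closedBall_zero_iff, Real.norm_eq_abs] at h2
      linarith
    have hR1 : ∀ x, R < |x| → deriv φ x = 0 := by
      intro x hx
      by_contra hne
      have h1 : x ∈ tsupport φ := support_deriv_subset hne
      have h2 := hR h1
      rw [mem_closedBall_zero_iff, Real.norm_eq_abs] at h2
      linarith
    set L := |R| + 1 with hL
    have hLpos : 0 < L := by positivity
    have hRL : R < L := by have := le_abs_self R; linarith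
    have hparts := ftc_ac (f := fun x => φ x * H x)
      (g := fun x => deriv φ x * H x + φ x * ((κ ^ 2 - W x) * y x)) (a := -L) (b := L)
      ((ac_of_c1 (fun x _ => hφd x) hφ'c.continuousOn).fun_mul (hHac _ _))
      (by
        filter_upwards [hHae] with x hx _
        exact (hφd x).mul hx)
    have hsupp : ∫ x in (-L)..L, (deriv φ x * H x + φ x * ((κ ^ 2 - W x) * y x)) =
        ∫ x, (deriv φ x * H x + φ x * ((κ ^ 2 - W x) * y x)) := by
      apply intervalIntegral.integral_eq_integral_of_support_subset
      intro t ht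
      have : |t| ≤ R := by
        by_contra hc'
        push Not at hc'
        apply ht
        simp only [hR0 t hc', hR1 t hc', zero_mul, add_zero]
      have h2 := abs_le.mp this
      constructor
      · linarith [h2.1]
      · linarith [h2.2]
    have hzero : ∫ x, (deriv φ x * H x + φ x * ((κ ^ 2 - W x) * y x)) = 0 := by
      rw [← hsupp, hparts.2]
      have e1 : φ L = 0 := hR0 L (by rw [abs_of_pos hLpos]; exact hRL)
      have e2 : φ (-L) = 0 := hR0 (-L) (by rw [abs_neg, abs_of_pos hLpos]; exact hRL)
      rw [e1, e2]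
      ring
    rw [integral_add i2 i3] at hzero
    have hweak := h.eq φ hφc hφs
    have e1 : ∫ x, deriv φ x * (dy x - H x) = (∫ x, deriv φ x * dy x) - ∫ x, deriv φ x * H x := by
      rw [← integral_sub i1 i2]
      congr 1
      ext x
      ring
    have e2 : ∫ x, φ x * ((κ ^ 2 - W x) * y x) =
        κ ^ 2 * (∫ x, φ x * y x) - ∫ x, W x * φ x * y x := by
      rw [← integral_const_mul, ← integral_sub (i4.const_mul _) i5]
      congr 1
      ext x
      ring
    rw [e1]
    rw [e2] at hzero
    linarith)
  have hae : dy =ᵐ[volume] fun x => H x + c := by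
    filter_upwards [hc] with x hx
    linarith
  refine ⟨fun x => H x + c, ?_, hae⟩
  have h1 : ∀ a b, y b - y a = ∫ t in a..b, (H t + c) := by
    intro a b
    rw [h.ftc a b]
    apply intervalIntegral.integral_congr_ae
    filter_upwards [hae] with x hx _ using hx
  refine ⟨hW, ?_, ?_⟩
  · intro x
    have h2 : y = fun x => y 0 + ∫ t in (0:ℝ)..x, (H t + c) := by
      ext x
      have := h1 0 x
      linarith
    have hHcc : Continuous (fun x => H x + c) := hHc.add continuous_const
    rw [h2]
    have h3 := intervalIntegral.integral_hasDerivAt_right (hHcc.intervalIntegrable 0 x)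
      (hHcc.stronglyMeasurableAtFilter _ _) hHcc.continuousAt
    simpa using h3.const_add (y 0)
  · intro a b
    rw [← hHsub a b]
    ring

theorem small_of_int {y y1 : ℝ → ℝ} (h : Integrable (fun x => y x ^ 2 + y1 x ^ 2) volume) :
    Small y y1 := by
  have key : ∀ ε > 0, ∀ S : Set ℝ, volume S = ⊤ → ∃ x ∈ S, |y x| < ε ∧ |y1 x| < ε := by
    intro ε hε S hS
    by_contra hcon
    push Not at hcon
    have h1 := h.measure_norm_ge_lt_top (ε := ε ^ 2) (by positivity)
    have h2 : S ⊆ {x | ε ^ 2 ≤ ‖y x ^ 2 + y1 x ^ 2‖} := by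
      intro x hx
      simp only [mem_ofPred_eq]
      rw [Real.norm_of_nonneg (by positivity)]
      by_cases h3 : |y x| < ε
      · have h4 := hcon x hx h3
        have : ε ^ 2 ≤ y1 x ^ 2 := by
          rw [← sq_abs (y1 x)]
          exact pow_le_pow_left₀ hε.le h4 2
        nlinarith [sq_nonneg (y x)]
      · push Not at h3
        have : ε ^ 2 ≤ y x ^ 2 := by
          rw [← sq_abs (y x)]
          exact pow_le_pow_left₀ hε.le h3 2
        nlinarith [sq_nonneg (y1 x)]
    have h3 := measure_mono (μ := volume) h2
    rw [hS, top_le_iff] at h3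
    rw [h3] at h1
    exact lt_irrefl _ h1
  constructor
  · intro ε hε
    rw [frequently_atBot]
    intro a
    obtain ⟨x, hx, h1⟩ := key ε hε (Iic a) (by simp)
    exact ⟨x, hx, h1⟩
  · intro ε hε
    rw [frequently_atTop]
    intro a
    obtain ⟨x, hx, h1⟩ := key ε hε (Ici a) (by simp)
    exact ⟨x, hx, h1⟩

theorem small_of_weak {W : ℝ → ℝ} {κ : ℝ} {y dy y1 : ℝ → ℝ}
    (h : WeakReal W (-κ ^ 2) y dy) (hae : dy =ᵐ[volume] y1) : Small y y1 := by
  apply small_of_int
  have h1 : Integrable (fun x => y x ^ 2) volume := h.l2.integrable_sq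
  have h2 : Integrable (fun x => dy x ^ 2) volume := h.l2'.integrable_sq
  refine h1.add (h2.congr ?_)
  filter_upwards [hae] with x hx
  rw [hx]

/-- potentials with an integrable power are admitted -/
theorem pot_of_int {W : ℝ → ℝ} {p : ℝ} (hp : 1 < p) (hW : ∀ x, 0 ≤ W x)
    (hi : Integrable (fun x => W x ^ p) volume) : Pot W := by
  have hmeas : AEStronglyMeasurable W volume := by
    have h1 := (hi.aestronglyMeasurable.aemeasurable.pow_const (1 / p)).aestronglyMeasurable
    refine h1.congr (Eventually.of_forall fun x => ?_)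
    simp only
    rw [← Real.rpow_mul (hW x), mul_one_div_cancel (by linarith), Real.rpow_one]
  have hle : ∀ ε > 0, ∀ x, W x ≤ ε + ε ^ (1 - p) * W x ^ p := by
    intro ε hε x
    rcases le_or_gt (W x) ε with h | h
    · have : 0 ≤ ε ^ (1 - p) * W x ^ p := mul_nonneg (Real.rpow_nonneg hε.le _) (Real.rpow_nonneg (hW x) _)
      linarith
    · have hWx : 0 < W x := by linarith
      have h1 : W x = W x ^ (1 - p) * W x ^ p := by
        rw [← Real.rpow_add hWx]
        simp
      have h2 : W x ^ (1 - p) ≤ ε ^ (1 - p) :=
        Real.rpow_le_rpow_of_nonpos hε h.le (by linarith)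
      have h3 : 0 ≤ W x ^ p := Real.rpow_nonneg (hW x) _
      nlinarith [mul_le_mul_of_nonneg_right h2 h3]
  have hint : ∀ a b, IntervalIntegrable W volume a b := by
    intro a b
    apply ((intervalIntegrable_const (c := (1:ℝ))).add
      ((hi.intervalIntegrable (a := a) (b := b)).const_mul (1 ^ (1 - p)))).mono_fun'
      hmeas.restrict
    filter_upwards with x
    rw [Real.norm_of_nonneg (hW x)]
    exact hle 1 one_pos x
  have hpi : ∀ a b, IntervalIntegrable (fun x => W x ^ p) volume a b := fun a b =>
    hi.intervalIntegrable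
  have hwb : ∀ ε > 0, ∀ x, ∫ t in (x-1)..x, W t ≤ ε + ε ^ (1 - p) * ∫ t in (x-1)..x, W t ^ p := by
    intro ε hε x
    have h1 : ∫ t in (x-1)..x, W t ≤ ∫ t in (x-1)..x, (ε + ε ^ (1 - p) * W t ^ p) := by
      apply intervalIntegral.integral_mono_on (by linarith) (hint _ _)
        ((intervalIntegrable_const).add ((hpi _ _).const_mul _))
      intro t _
      exact hle ε hε t
    rw [intervalIntegral.integral_add intervalIntegrable_const ((hpi _ _).const_mul _),
      intervalIntegral.integral_const_mul, intervalIntegral.integral_const] at h1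
    simpa using h1
  have hnn : ∀ x, 0 ≤ ∫ t in (x-1)..x, W t := fun x =>
    intervalIntegral.integral_nonneg (by linarith) (fun t _ => hW t)
  have hsub : ∀ x, ∫ t in (x-1)..x, W t ^ p = (∫ t in (0:ℝ)..x, W t ^ p) - ∫ t in (0:ℝ)..(x-1), W t ^ p :=
    fun x => (intervalIntegral.integral_interval_sub_left (hpi _ _) (hpi _ _)).symm
  have conc : ∀ l : Filter ℝ, Tendsto (fun x => ∫ t in (x-1)..x, W t ^ p) l (𝓝 0) →
      Tendsto (fun x => ∫ t in (x-1)..x, W t) l (𝓝 0) := by
    intro l hl
    rw [Metric.tendsto_nhds]
    intro ε hε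
    have h1 : Tendsto (fun x => ε / 2 + (ε / 2) ^ (1 - p) * ∫ t in (x-1)..x, W t ^ p) l
        (𝓝 (ε / 2 + (ε / 2) ^ (1 - p) * 0)) := (hl.const_mul _).const_add _
    rw [mul_zero, add_zero] at h1
    filter_upwards [h1.eventually (gt_mem_nhds (by linarith : ε / 2 < ε))] with x hx
    rw [Real.dist_eq, sub_zero, abs_of_nonneg (hnn x)]
    exact lt_of_le_of_lt (hwb (ε / 2) (by linarith) x) hx
  refine ⟨hW, hint, conc _ ?_, conc _ ?_⟩
  · have h1 : Tendsto (fun x => ∫ t in x..(0:ℝ), W t ^ p) atBot (𝓝 (∫ t in Iic 0, W t ^ p)) :=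
      intervalIntegral_tendsto_integral_Iic 0 hi.integrableOn tendsto_id
    have hs : Tendsto (fun x : ℝ => x - 1) atBot atBot := tendsto_atBot_add_const_right _ _ tendsto_id
    have h2 := (h1.comp hs).sub h1
    rw [sub_self] at h2
    refine h2.congr (fun x => ?_)
    simp only [Function.comp_apply]
    rw [hsub x, intervalIntegral.integral_symm 0 (x - 1), intervalIntegral.integral_symm 0 x]
    ring
  · have h1 : Tendsto (fun x => ∫ t in (0:ℝ)..x, W t ^ p) atTop (𝓝 (∫ t in Ioi 0, W t ^ p)) :=
      intervalIntegral_tendsto_integral_Ioi 0 hi.integrableOn tendsto_id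
    have hs : Tendsto (fun x : ℝ => x - 1) atTop atTop := tendsto_atTop_add_const_right _ _ tendsto_id
    have h2 := h1.sub (h1.comp hs)
    rw [sub_self] at h2
    refine h2.congr (fun x => ?_)
    simp only [Function.comp_apply]
    rw [hsub x]

end P371H29
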