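import Mathlib
import Vale.Agent.Lib.P371H29.Weak
import Vale.Agent.Lib.P371H29.Const

open MeasureTheory Set Filter
open scoped Topology ContDiff

namespace P371H29

/-- `ψ` is an eigenfunction of the form operator `-d²/dx² - W` on the real line for the
eigenvalue `lam`: `ψ` belongs to the Sobolev space of order one (it is square integrable and is the
primitive of a square integrable function `ψ'`), it does not vanish identically, and it satisfies
the weak eigenvalue equation against all smooth compactly supported test functions. -/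
structure IsEigenfunction (W : ℝ → ℝ) (lam : ℝ) (ψ : ℝ → ℂ) : Prop where
  memLp : MemLp ψ 2 volume
  weak : ∃ ψ' : ℝ → ℂ, MemLp ψ' 2 volume ∧ (∀ a b, ψ b - ψ a = ∫ t in a..b, ψ' t) ∧
    ∀ φ : ℝ → ℝ, ContDiff ℝ ∞ φ → HasCompactSupport φ →
      (∫ t, ψ' t * ((deriv φ t : ℝ) : ℂ)) - (∫ t, (W t : ℂ) * ψ t * (φ t : ℂ)) =
        (lam : ℂ) * ∫ t, ψ t * (φ t : ℂ)
  nonzero : ∃ x, ψ x ≠ 0

/-- `lam` is a negative eigenvalue of `-d²/dx² - W`. -/
def IsNegEigenvalue (W : ℝ → ℝ) (lam : ℝ) : Prop :=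
  lam < 0 ∧ ∃ ψ : ℝ → ℂ, IsEigenfunction W lam ψ

section

variable {W : ℝ → ℝ} {lam : ℝ} {ψ : ℝ → ℂ}

/-- real and imaginary parts satisfy the real weak equation -/
theorem weak_parts (hW : ∀ a b, IntervalIntegrable W volume a b)
    (L : ℂ →L[ℝ] ℝ) (hL : ∀ (r : ℝ) (z : ℂ), L ((r : ℂ) * z) = r * L z)
    (hψ : MemLp ψ 2 volume) {ψ' : ℝ → ℂ} (hψ' : MemLp ψ' 2 volume)
    (hftc : ∀ a b, ψ b - ψ a = ∫ t in a..b, ψ' t)
    (hweak : ∀ φ : ℝ → ℝ, ContDiff ℝ ∞ φ → HasCompactSupport φ →
      (∫ t, ψ' t * ((deriv φ t : ℝ) : ℂ)) - (∫ t, (W t : ℂ) * ψ t * (φ t : ℂ)) =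
        (lam : ℂ) * ∫ t, ψ t * (φ t : ℂ)) :
    WeakReal W lam (fun x => L (ψ x)) (fun x => L (ψ' x)) := by
  have hl' : LocallyIntegrable ψ' volume := hψ'.locallyIntegrable (by norm_num)
  have hi' : ∀ a b, IntervalIntegrable ψ' volume a b := fun a b =>
    intervalIntegrable_iff.mpr
      ((hl'.integrableOn_isCompact isCompact_uIcc).mono_set uIoc_subset_uIcc)
  have hcont : Continuous ψ := by
    rw [continuous_iff_continuousAt]
    intro x
    have h3 : ψ = fun z => ψ (x - 1) + ∫ t in (x-1)..z, ψ' t := by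
      ext z
      have := hftc (x-1) z
      rw [← this]
      ring
    rw [h3]
    apply continuousAt_const.add
    have := intervalIntegral.continuousOn_primitive_interval (f := ψ') (μ := volume)
      (a := x - 1) (b := x + 1)
      (by
        have := (hl'.integrableOn_isCompact (isCompact_uIcc (a := x - 1) (b := x + 1)))
        exact this)
    rw [uIcc_of_le (by linarith)] at this
    exact this.continuousAt (Icc_mem_nhds (by linarith) (by linarith))
  refine ⟨L.comp_memLp' hψ, L.comp_memLp' hψ', ?_, ?_⟩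
  · intro a b
    rw [← map_sub, hftc a b]
    exact (L.intervalIntegral_comp_comm (hi' a b)).symm
  · intro φ hφc hφs
    have h := congrArg L (hweak φ hφc hφs)
    rw [map_sub, hL] at h
    have hφ'c : Continuous (deriv φ) := hφc.continuous_deriv (by simp)
    have hφ's : HasCompactSupport (deriv φ) := hφs.deriv
    have i1 : Integrable (fun t => ψ' t * ((deriv φ t : ℝ) : ℂ)) volume := by
      have := hl'.integrable_smul_left_of_hasCompactSupport hφ'c hφ's
      refine this.congr (Eventually.of_forall fun x => ?_)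
      simp only [Complex.real_smul]
      ring
    have i2 : Integrable (fun t => ψ t * (φ t : ℂ)) volume := by
      have := hcont.locallyIntegrable.integrable_smul_left_of_hasCompactSupport (μ := volume)
        hφc.continuous hφs
      refine this.congr (Eventually.of_forall fun x => ?_)
      simp only [Complex.real_smul]
      ring
    have hWl : LocallyIntegrable (fun x => (W x : ℂ) * ψ x) volume := by
      intro x
      refine ⟨Ioc (x - 1) (x + 1), Ioc_mem_nhds (by linarith) (by linarith), ?_⟩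
      have hWc : IntervalIntegrable (fun x => (W x : ℂ)) volume (x-1) (x+1) :=
        ⟨Integrable.ofReal (hW (x-1) (x+1)).1, Integrable.ofReal (hW (x-1) (x+1)).2⟩
      have h1 : IntervalIntegrable (fun x => (W x : ℂ) * ψ x) volume (x-1) (x+1) :=
        hWc.mul_continuousOn hcont.continuousOn
      exact (intervalIntegrable_iff_integrableOn_Ioc_of_le (by linarith)).mp h1
    have i3 : Integrable (fun t => (W t : ℂ) * ψ t * (φ t : ℂ)) volume := by
      have := hWl.integrable_smul_left_of_hasCompactSupport hφc.continuous hφs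
      refine this.congr (Eventually.of_forall fun x => ?_)
      simp only [Complex.real_smul]
      ring
    rw [← L.integral_comp_comm i1, ← L.integral_comp_comm i2, ← L.integral_comp_comm i3] at h
    have e1 : ∀ t, L (ψ' t * ((deriv φ t : ℝ) : ℂ)) = deriv φ t * L (ψ' t) := fun t => by
      rw [mul_comm, hL]
    have e2 : ∀ t, L (ψ t * (φ t : ℂ)) = φ t * L (ψ t) := fun t => by
      rw [mul_comm, hL]
    have e3 : ∀ t, L ((W t : ℂ) * ψ t * (φ t : ℂ)) = W t * φ t * L (ψ t) := fun t => by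
      rw [mul_comm ((W t : ℂ) * ψ t), hL, hL]
      ring
    simp only [e1, e2, e3] at h
    exact h

theorem re_smul (r : ℝ) (z : ℂ) : Complex.reCLM ((r : ℂ) * z) = r * Complex.reCLM z := by
  simp

theorem im_smul (r : ℝ) (z : ℂ) : Complex.imCLM ((r : ℂ) * z) = r * Complex.imCLM z := by
  simp

/-- each part is a solution that is small along sequences -/
theorem parts_sol (hPot : Pot W) (hlam : lam < 0) (h : IsEigenfunction W lam ψ) :
    (∃ y1, Sol W (Real.sqrt (-lam)) (fun x => (ψ x).re) y1 ∧ Small (fun x => (ψ x).re) y1) ∧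
    (∃ y1, Sol W (Real.sqrt (-lam)) (fun x => (ψ x).im) y1 ∧ Small (fun x => (ψ x).im) y1) := by
  obtain ⟨ψ', h1, h2, h3⟩ := h.weak
  have hk : -(Real.sqrt (-lam)) ^ 2 = lam := by
    rw [Real.sq_sqrt (by linarith)]
    ring
  constructor
  · have hw := weak_parts hPot.int Complex.reCLM re_smul h.memLp h1 h2 h3
    rw [← hk] at hw
    obtain ⟨y1, hs, hae⟩ := sol_of_weak hPot.int hw
    exact ⟨y1, hs, small_of_weak hw hae⟩
  · have hw := weak_parts hPot.int Complex.imCLM im_smul h.memLp h1 h2 h3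
    rw [← hk] at hw
    obtain ⟨y1, hs, hae⟩ := sol_of_weak hPot.int hw
    exact ⟨y1, hs, small_of_weak hw hae⟩

theorem exists_eig (hPot : Pot W) (h : IsNegEigenvalue W lam) :
    ∃ y y1, Eig W (Real.sqrt (-lam)) y y1 := by
  obtain ⟨hlam, ψ, hψ⟩ := h
  obtain ⟨⟨y1, hs, hsm⟩, ⟨z1, hs', hsm'⟩⟩ := parts_sol hPot hlam hψ
  obtain ⟨x, hx⟩ := hψ.nonzero
  by_cases hre : (ψ x).re = 0
  · refine ⟨_, z1, hs', hsm', x, fun him => hx ?_⟩
    exact Complex.ext hre him
  · exact ⟨_, y1, hs, hsm, x, hre⟩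

end

section

variable {V : ℝ → ℝ} {κ : ℝ} {f f1 g g1 : ℝ → ℝ}

theorem Sol.sub_smul (hf : Sol V κ f f1) (hg : Sol V κ g g1) (α : ℝ) :
    Sol V κ (fun x => g x - α * f x) (fun x => g1 x - α * f1 x) where
  hV := hf.hV
  hd := fun x => (hg.hd x).sub ((hf.hd x).const_mul α)
  hi := fun a b => by
    have h1 := hf.hi a b
    have h2 := hg.hi a b
    have h3 : ∫ t in a..b, (κ ^ 2 - V t) * (g t - α * f t) =
        (∫ t in a..b, (κ ^ 2 - V t) * g t) - α * ∫ t in a..b, (κ ^ 2 - V t) * f t := by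
      rw [← intervalIntegral.integral_const_mul, ← intervalIntegral.integral_sub (hg.intF a b)
        ((hf.intF a b).const_mul α)]
      congr 1
      ext t
      ring
    rw [h3, ← h1, ← h2]
    ring

/-- decaying solutions for the same level are proportional -/
theorem proportional (hV : Pot V) (hκ : 0 < κ) (hf : Eig V κ f f1) (hg : Sol V κ g g1)
    (hgs : Small g g1) : ∃ α : ℝ, ∀ x, g x = α * f x := by
  by_cases hg0 : ∃ x, g x ≠ 0
  · have hge : Eig V κ g g1 := ⟨hg, hgs, hg0⟩
    set w : ℝ → ℝ := fun x => f x * g1 x - f1 x * g x with hw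
    have hwac : ∀ a b, AbsolutelyContinuousOnInterval w a b := fun a b =>
      ((hf.sol.ac_y a b).fun_mul (hg.ac_y1 a b)).fun_sub ((hf.sol.ac_y1 a b).fun_mul (hg.ac_y a b))
    have hwae : ∀ᵐ x, HasDerivAt w 0 x := by
      filter_upwards [hf.sol.ae_deriv, hg.ae_deriv] with x h1 h2
      refine (((hf.sol.hd x).mul h2).sub (h1.mul (hg.hd x))).congr_deriv ?_
      ring
    have hwconst : ∀ a b, w b = w a := by
      intro a b
      have := (ftc_ac (hwac a b) (g := fun _ => 0) (hwae.mono fun x hx _ => hx)).2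
      rw [intervalIntegral.integral_zero] at this
      linarith
    have hlim : Tendsto w atBot (𝓝 0) := by
      obtain ⟨a1, a2⟩ := hf.tendsto_bot hV hκ
      obtain ⟨b1, b2⟩ := hge.tendsto_bot hV hκ
      have := (a1.mul b2).sub (a2.mul b1)
      simpa using this
    have hw0 : ∀ x, w x = 0 := by
      intro x
      have : Tendsto w atBot (𝓝 (w x)) := by
        refine tendsto_const_nhds.congr (fun t => ?_)
        exact (hwconst x t).symm
      exact tendsto_nhds_unique this hlim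
    obtain ⟨x0, hx0⟩ := hf.ne
    refine ⟨g x0 / f x0, ?_⟩
    have hs := hf.sol.sub_smul hg (g x0 / f x0)
    have e1 : g x0 - g x0 / f x0 * f x0 = 0 := by field_simp; ring
    have e2 : g1 x0 - g x0 / f x0 * f1 x0 = 0 := by
      have := hw0 x0
      simp only [hw] at this
      field_simp
      linarith
    intro x
    have := (hs.unique e1 e2 x).1
    linarith
  · push Not at hg0
    exact ⟨0, fun x => by rw [hg0 x]; ring⟩

/-- negative eigenvalues are simple -/
theorem simple {W : ℝ → ℝ} {lam : ℝ} {ψ φ : ℝ → ℂ} (hPot : Pot W) (hlam : lam < 0)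
    (hψ : IsEigenfunction W lam ψ) (hφ : IsEigenfunction W lam φ) :
    ∃ c : ℂ, c ≠ 0 ∧ ∀ x, φ x = c * ψ x := by
  have hκ : 0 < Real.sqrt (-lam) := Real.sqrt_pos.mpr (by linarith)
  obtain ⟨f, f1, hf⟩ := exists_eig hPot ⟨hlam, ψ, hψ⟩
  obtain ⟨⟨y1, hs, hsm⟩, ⟨z1, hs', hsm'⟩⟩ := parts_sol hPot hlam hψ
  obtain ⟨⟨u1, ht, htm⟩, ⟨v1, ht', htm'⟩⟩ := parts_sol hPot hlam hφ
  obtain ⟨a, ha⟩ := proportional hPot hκ hf hs hsm
  obtain ⟨b, hb⟩ := proportional hPot hκ hf hs' hsm'
  obtain ⟨c, hc⟩ := proportional hPot hκ hf ht htm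
  obtain ⟨d, hd⟩ := proportional hPot hκ hf ht' htm'
  have e1 : ∀ x, ψ x = (⟨a, b⟩ : ℂ) * (f x : ℂ) := by
    intro x
    apply Complex.ext
    · simp [ha x]
    · simp [hb x]
  have e2 : ∀ x, φ x = (⟨c, d⟩ : ℂ) * (f x : ℂ) := by
    intro x
    apply Complex.ext
    · simp [hc x]
    · simp [hd x]
  have n1 : (⟨a, b⟩ : ℂ) ≠ 0 := by
    intro h0
    obtain ⟨x, hx⟩ := hψ.nonzero
    apply hx
    rw [e1, h0, zero_mul]
  have n2 : (⟨c, d⟩ : ℂ) ≠ 0 := by
    intro h0
    obtain ⟨x, hx⟩ := hφ.nonzero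
    apply hx
    rw [e2, h0, zero_mul]
  refine ⟨(⟨c, d⟩ : ℂ) / (⟨a, b⟩ : ℂ), div_ne_zero n2 n1, fun x => ?_⟩
  rw [e1, e2]
  field_simp

end

end P371H29
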