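import Mathlib
import Vale.Agent.Lib.P371H29.Spec

open MeasureTheory Set Filter
open scoped Topology ContDiff

namespace P371H29

/-- the weight in the inequality for arbitrary potentials: the minimum over `s ∈ [0,1]` of
`((1 - s)^p + C s) / (1 + s)^p`, where `p = γ + 1/2` and `C = p (p / (p - 1))^(p - 1)` -/
noncomputable def theta (γ : ℝ) : ℝ :=
  sInf ((fun s : ℝ => ((1 - s) ^ (γ + 1 / 2) +
    (γ + 1 / 2) * ((γ + 1 / 2) / (γ - 1 / 2)) ^ (γ - 1 / 2) * s) / (1 + s) ^ (γ + 1 / 2)) ''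
      Set.Icc 0 1)

theorem Cp_eq (γ : ℝ) : Cp (γ + 1 / 2) = (γ + 1 / 2) * ((γ + 1 / 2) / (γ - 1 / 2)) ^ (γ - 1 / 2) := by
  unfold Cp
  rw [show γ + 1 / 2 - 1 = γ - 1 / 2 by ring]

theorem theta_nonneg' {γ : ℝ} (h : 1 / 2 < γ) {s : ℝ} (hs : s ∈ Icc (0:ℝ) 1) :
    0 ≤ ((1 - s) ^ (γ + 1 / 2) +
    (γ + 1 / 2) * ((γ + 1 / 2) / (γ - 1 / 2)) ^ (γ - 1 / 2) * s) / (1 + s) ^ (γ + 1 / 2) := by
  rw [← Cp_eq]
  have h1 := Cp_pos (p := γ + 1 / 2) (by linarith)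
  have h2 : 0 ≤ 1 - s := by linarith [hs.2]
  have h3 : 0 ≤ s := hs.1
  positivity

theorem theta_bdd {γ : ℝ} (h : 1 / 2 < γ) : BddBelow ((fun s : ℝ => ((1 - s) ^ (γ + 1 / 2) +
    (γ + 1 / 2) * ((γ + 1 / 2) / (γ - 1 / 2)) ^ (γ - 1 / 2) * s) / (1 + s) ^ (γ + 1 / 2)) ''
      Set.Icc 0 1) := by
  refine ⟨0, ?_⟩
  rintro _ ⟨s, hs, rfl⟩
  exact theta_nonneg' h hs

theorem theta_good {γ : ℝ} (h : 1 / 2 < γ) : GoodTheta (γ + 1 / 2) (theta γ) := by
  refine ⟨?_, ?_, ?_⟩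
  · apply Real.sInf_nonneg
    rintro _ ⟨s, hs, rfl⟩
    exact theta_nonneg' h hs
  · have := csInf_le (theta_bdd h) (mem_image_of_mem _ (left_mem_Icc.mpr zero_le_one))
    refine le_trans this ?_
    simp
  · intro s hs
    have := csInf_le (theta_bdd h) (mem_image_of_mem _ hs)
    have h1 : 0 < (1 + s) ^ (γ + 1 / 2) := by
      have : 0 ≤ s := hs.1
      positivity
    rw [le_div_iff₀ h1] at this
    rw [Cp_eq]
    exact this

theorem le_theta {γ θ : ℝ} (hg : GoodTheta (γ + 1 / 2) θ) : θ ≤ theta γ := by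
  apply le_csInf
  · exact ⟨_, mem_image_of_mem _ (left_mem_Icc.mpr zero_le_one)⟩
  · rintro _ ⟨s, hs, rfl⟩
    have h1 : 0 < (1 + s) ^ (γ + 1 / 2) := by
      have : 0 ≤ s := hs.1
      positivity
    simp only
    rw [le_div_iff₀ h1, ← Cp_eq]
    exact hg.2.2 s hs

theorem theta_lower {γ : ℝ} (h : 1 / 2 < γ) (h' : γ ≤ 3 / 2) :
    1 / 2 * ((γ + 1 / 2) / (γ - 1 / 2)) ^ (γ - 1 / 2) ≤ theta γ := by
  have := le_theta (goodTheta_simple (p := γ + 1 / 2) (by linarith) (by linarith))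
  rw [Cp_eq] at this
  have h0 : γ + 1 / 2 ≠ 0 := by linarith
  have e : (γ + 1 / 2) * ((γ + 1 / 2) / (γ - 1 / 2)) ^ (γ - 1 / 2) / (2 * (γ + 1 / 2)) =
    1 / 2 * ((γ + 1 / 2) / (γ - 1 / 2)) ^ (γ - 1 / 2) := by
    field_simp
  rw [e] at this
  exact this

theorem theta_one : 2 / Real.sqrt 5 ≤ theta 1 := by
  apply le_theta
  have : (1:ℝ) + 1 / 2 = 3 / 2 := by norm_num
  rw [this]
  exact goodTheta_three_halves

theorem theta_three_halves : theta (3 / 2) = 1 := by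
  apply le_antisymm (theta_good (by norm_num)).2.1
  apply le_theta
  refine ⟨zero_le_one, le_rfl, ?_⟩
  intro s _
  unfold Cp
  norm_num
  nlinarith

section

variable {γ : ℝ} {W : ℝ → ℝ}

theorem abs_eq_sq {lam : ℝ} (h : lam < 0) : |lam| = (Real.sqrt (-lam)) ^ 2 := by
  rw [Real.sq_sqrt (by linarith), abs_of_neg h]

theorem int_bound (h : 1 / 2 < γ) (hW : ∀ x, 0 ≤ W x)
    (hi : Integrable (fun x => W x ^ (γ + 1 / 2)) volume) (a b : ℝ) (hab : a ≤ b) :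
    ∫ x in a..b, W x ^ (γ + 1 / 2) ≤ ∫ x, W x ^ (γ + 1 / 2) := by
  rw [intervalIntegral.integral_of_le hab]
  exact setIntegral_le_integral hi (Eventually.of_forall fun x => Real.rpow_nonneg (hW x) _)

theorem main_two {lam₁ lam₂ θ : ℝ} (h : 1 / 2 < γ) (h' : γ ≤ 3 / 2) (hW : ∀ x, 0 ≤ W x)
    (hi : Integrable (fun x => W x ^ (γ + 1 / 2)) volume) (h12 : lam₁ < lam₂)
    (h1 : IsNegEigenvalue W lam₁) (h2 : IsNegEigenvalue W lam₂)
    (hθ : GoodTheta (γ + 1 / 2) θ) :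
    |lam₁| ^ γ + θ * |lam₂| ^ γ ≤ L1 γ * ∫ x, W x ^ (γ + 1 / 2) := by
  have hPot := pot_of_int (by linarith : 1 < γ + 1 / 2) hW hi
  obtain ⟨f, f1, hf⟩ := exists_eig hPot h1
  obtain ⟨g, g1, hg⟩ := exists_eig hPot h2
  have hk2 : 0 < Real.sqrt (-lam₂) := Real.sqrt_pos.mpr (by linarith [h2.1])
  have hk12 : Real.sqrt (-lam₂) < Real.sqrt (-lam₁) :=
    Real.sqrt_lt_sqrt (by linarith [h2.1]) (by linarith)
  have key := two_gen (by linarith : 1 < γ + 1 / 2) (by linarith) hθ hPot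
    (fun a b => hi.intervalIntegrable) (I := ∫ x, W x ^ (γ + 1 / 2)) (int_bound h hW hi) hk2 hk12 hf hg
  have hL := L1_pos h
  have := mul_le_mul_of_nonneg_left key hL.le
  rw [mul_add, level h (by linarith)] at this
  have e : L1 γ * (θ * (Cp (γ + 1 / 2) * (2 * Phi (γ + 1 / 2) (Real.sqrt (-lam₂)) (Real.sqrt (-lam₂))))) =
      θ * (Real.sqrt (-lam₂) ^ 2) ^ γ := by
    rw [← level h hk2]
    ring
  rw [e, ← abs_eq_sq h1.1, ← abs_eq_sq h2.1] at this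
  exact this

theorem main_two_unimodal {lam₁ lam₂ : ℝ} (h : 1 / 2 < γ) (h' : γ ≤ 3 / 2) (hW : ∀ x, 0 ≤ W x)
    (hi : Integrable (fun x => W x ^ (γ + 1 / 2)) volume)
    (huni : ∃ c, MonotoneOn W (Set.Iic c) ∧ AntitoneOn W (Set.Ici c)) (h12 : lam₁ < lam₂)
    (h1 : IsNegEigenvalue W lam₁) (h2 : IsNegEigenvalue W lam₂) :
    |lam₁| ^ γ + |lam₂| ^ γ ≤ L1 γ * ∫ x, W x ^ (γ + 1 / 2) := by
  have hPot := pot_of_int (by linarith : 1 < γ + 1 / 2) hW hi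
  obtain ⟨c, hl, hr⟩ := huni
  obtain ⟨f, f1, hf⟩ := exists_eig hPot h1
  obtain ⟨g, g1, hg⟩ := exists_eig hPot h2
  have hk2 : 0 < Real.sqrt (-lam₂) := Real.sqrt_pos.mpr (by linarith [h2.1])
  have hk12 : Real.sqrt (-lam₂) < Real.sqrt (-lam₁) :=
    Real.sqrt_lt_sqrt (by linarith [h2.1]) (by linarith)
  have key := two_anti (by linarith : 1 < γ + 1 / 2) (by linarith) hPot
    (fun a b => hi.intervalIntegrable) (I := ∫ x, W x ^ (γ + 1 / 2)) (int_bound h hW hi) hk2 hk12 hf hg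
    (fun hne => unimodal_anti hPot (by linarith) hf hl hr hne)
  have hL := L1_pos h
  have := mul_le_mul_of_nonneg_left key hL.le
  rw [mul_add, one_mul, level h (by linarith), level h hk2, ← abs_eq_sq h1.1,
    ← abs_eq_sq h2.1] at this
  exact this

theorem main_one {lam : ℝ} (h : 1 / 2 < γ) (hW : ∀ x, 0 ≤ W x)
    (hi : Integrable (fun x => W x ^ (γ + 1 / 2)) volume) (h1 : IsNegEigenvalue W lam) :
    |lam| ^ γ ≤ L1 γ * ∫ x, W x ^ (γ + 1 / 2) := by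
  have hPot := pot_of_int (by linarith : 1 < γ + 1 / 2) hW hi
  obtain ⟨f, f1, hf⟩ := exists_eig hPot h1
  have hk : 0 < Real.sqrt (-lam) := Real.sqrt_pos.mpr (by linarith [h1.1])
  have key := one_gen (by linarith : 1 < γ + 1 / 2) hPot
    (fun a b => hi.intervalIntegrable) (I := ∫ x, W x ^ (γ + 1 / 2)) (int_bound h hW hi) hk hf
  have hL := L1_pos h
  have := mul_le_mul_of_nonneg_left key hL.le
  rw [level h hk, ← abs_eq_sq h1.1] at this
  exact this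

/-- general passage from pairs to sets with at most two elements -/
theorem sum_two {F : ℝ → ℝ} {P : ℝ → Prop} {B : ℝ} (h0 : 0 ≤ B) (h1 : ∀ a, P a → F a ≤ B)
    (h2 : ∀ a b, a < b → P a → P b → F a + F b ≤ B) (S : Finset ℝ) (hS : ∀ a ∈ S, P a)
    (hc : S.card ≤ 2) : ∑ a ∈ S, F a ≤ B := by
  interval_cases hn : S.card
  · rw [Finset.card_eq_zero] at hn
    rw [hn]
    simpa using h0
  · rw [Finset.card_eq_one] at hn
    obtain ⟨a, rfl⟩ := hn
    simpa using h1 a (hS a (by simp))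
  · rw [Finset.card_eq_two] at hn
    obtain ⟨a, b, hab, rfl⟩ := hn
    rw [Finset.sum_pair hab]
    have ha := hS a (by simp)
    have hb := hS b (by simp)
    rcases lt_or_gt_of_ne hab with h | h
    · exact h2 a b h ha hb
    · have := h2 b a h hb ha
      linarith

end

end P371H29
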